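import Mathlib

/-!
Conditional expectations on a finite uniform space, and a spectral lemma.
-/

namespace Vale.Agent.P335

open Finset
open scoped Classical

variable {X : Type*} [Fintype X]

/-- The standard inner product. -/
noncomputable def ip (f g : X → ℝ) : ℝ := ∑ x, f x * g x

theorem ip_comm (f g : X → ℝ) : ip f g = ip g f := by simp [ip, mul_comm]

theorem ip_self_nonneg (f : X → ℝ) : 0 ≤ ip f f := sum_nonneg (fun _ _ => mul_self_nonneg _)

theorem ip_add_left (f g h : X → ℝ) : ip (f + g) h = ip f h + ip g h := by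
  simp [ip, add_mul, sum_add_distrib]

theorem ip_add_right (f g h : X → ℝ) : ip h (f + g) = ip h f + ip h g := by
  simp [ip, mul_add, sum_add_distrib]

theorem ip_sub_left (f g h : X → ℝ) : ip (f - g) h = ip f h - ip g h := by
  simp [ip, sub_mul, sum_sub_distrib]

theorem ip_sub_right (f g h : X → ℝ) : ip h (f - g) = ip h f - ip h g := by
  simp [ip, mul_sub, sum_sub_distrib]

theorem ip_smul_left (c : ℝ) (f h : X → ℝ) : ip (c • f) h = c * ip f h := by
  simp [ip, mul_sum, mul_assoc]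

theorem ip_smul_right (c : ℝ) (f h : X → ℝ) : ip h (c • f) = c * ip h f := by
  rw [ip_comm, ip_smul_left, ip_comm]

theorem ip_sum_left {ι : Type*} (s : Finset ι) (f : ι → X → ℝ) (h : X → ℝ) :
    ip (∑ i ∈ s, f i) h = ∑ i ∈ s, ip (f i) h := by
  simp only [ip, Finset.sum_apply, sum_mul]
  exact sum_comm

theorem ip_sum_right {ι : Type*} (s : Finset ι) (f : ι → X → ℝ) (h : X → ℝ) :
    ip h (∑ i ∈ s, f i) = ∑ i ∈ s, ip h (f i) := by
  rw [ip_comm, ip_sum_left]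
  exact sum_congr rfl (fun _ _ => ip_comm _ _)

theorem eq_zero_of_ip {f : X → ℝ} (h : ip f f ≤ 0) : f = 0 := by
  have h1 := le_antisymm h (ip_self_nonneg f)
  rw [ip, sum_eq_zero_iff_of_nonneg (fun _ _ => mul_self_nonneg _)] at h1
  funext x
  exact mul_self_eq_zero.1 (h1 x (mem_univ _))

theorem ext_ip {f g : X → ℝ} (h : ∀ k, ip f k = ip g k) : f = g := by
  have := h (f - g)
  rw [← sub_eq_zero, ← ip_sub_left] at this
  exact sub_eq_zero.1 (eq_zero_of_ip this.le)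

theorem ip_perm (σ : Equiv.Perm X) (f g : X → ℝ) : ip (f ∘ σ) (g ∘ σ) = ip f g :=
  Equiv.sum_comp σ (fun x => f x * g x)

theorem two_ip_le (f g : X → ℝ) : 2 * ip f g ≤ ip f f + ip g g := by
  have := ip_self_nonneg (f - g)
  rw [ip_sub_left, ip_sub_right, ip_sub_right, ip_comm g f] at this
  linarith

theorem eig_lower (T : (X → ℝ) →ₗ[ℝ] (X → ℝ)) (hT : ∀ f g, ip (T f) g = ip f (T g)) (c : ℝ)
    (φ : X → ℝ) (h : ∀ (μ : ℝ) (g : X → ℝ), T g = μ • g → μ < c → ip g φ = 0) :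
    c * ip φ φ ≤ ip φ (T φ) := by
  have hA : (LinearMap.toMatrix' T).IsHermitian := by
    ext i j
    have := hT (Pi.single i 1) (Pi.single j 1)
    simp only [ip, Pi.single_apply, mul_ite, mul_one, mul_zero, sum_ite_eq', mem_univ, if_true,
      ite_mul, one_mul, zero_mul] at this
    simpa [Matrix.conjTranspose_apply, LinearMap.toMatrix'_apply] using this
  set b := hA.eigenvectorBasis
  have hb : ∀ j, T (b j).ofLp = hA.eigenvalues j • (b j).ofLp := by
    intro j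
    rw [← hA.mulVec_eigenvectorBasis j, LinearMap.toMatrix'_mulVec]
  have key : ∀ f g : X → ℝ, ip f g = ∑ j, ip (b j).ofLp f * ip (b j).ofLp g := by
    intro f g
    have := b.sum_inner_mul_inner (WithLp.toLp 2 f) (WithLp.toLp 2 g)
    simp only [PiLp.inner_apply, RCLike.inner_apply, conj_trivial] at this
    simp only [ip]
    rw [show ∑ x, f x * g x = ∑ x, g x * f x by simp [mul_comm], ← this]
    simp [mul_comm]
  rw [key φ φ, key φ (T φ), mul_sum]
  refine sum_le_sum (fun j _ => ?_)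
  rw [← hT, hb, ip_smul_left]
  by_cases hj : hA.eigenvalues j < c
  · rw [h _ _ (hb j) hj]; simp
  · nlinarith [mul_self_nonneg (ip (b j).ofLp φ)]

section CE

variable {K K' : Type*}

/-- Size of the fibre through `x`. -/
noncomputable def cnt (κ : X → K) (x : X) : ℝ := ∑ y, if κ y = κ x then 1 else 0

theorem cnt_pos (κ : X → K) (x : X) : 0 < cnt κ x :=
  sum_pos' (fun _ _ => by split_ifs <;> norm_num) ⟨x, mem_univ _, by simp⟩

/-- Conditional expectation given the key `κ`. -/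
noncomputable def cE (κ : X → K) : (X → ℝ) →ₗ[ℝ] (X → ℝ) where
  toFun f x := (∑ y, if κ y = κ x then f y else 0) / cnt κ x
  map_add' f g := by
    funext x
    rw [Pi.add_apply, ← add_div, ← sum_add_distrib]
    congr 1
    exact sum_congr rfl (fun y _ => by split_ifs <;> simp)
  map_smul' c f := by
    funext x
    rw [RingHom.id_apply, Pi.smul_apply, smul_eq_mul, ← mul_div_assoc, mul_sum]
    congr 1
    exact sum_congr rfl (fun y _ => by split_ifs <;> simp)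

theorem cE_apply (κ : X → K) (f : X → ℝ) (x : X) :
    cE κ f x = (∑ y, if κ y = κ x then f y else 0) / cnt κ x := rfl

theorem cE_congr (κ : X → K) (f : X → ℝ) {x x' : X} (h : κ x = κ x') : cE κ f x = cE κ f x' := by
  simp only [cE_apply, cnt, h]

theorem cE_mul (κ : X → K) (g f : X → ℝ) (x : X) (h : ∀ y, κ y = κ x → g y = g x) :
    cE κ (g * f) x = g x * cE κ f x := by
  rw [cE_apply, cE_apply, ← mul_div_assoc, mul_sum]
  congr 1
  refine sum_congr rfl (fun y _ => ?_)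
  split_ifs with hy
  · rw [Pi.mul_apply, h y hy]
  · simp

theorem cE_of_meas (κ : X → K) (f : X → ℝ) (x : X) (h : ∀ y, κ y = κ x → f y = f x) :
    cE κ f x = f x := by
  have h1 := cE_mul κ f 1 x h
  rw [mul_one] at h1
  rw [h1, cE_apply]
  have := (cnt_pos κ x).ne'
  simp only [Pi.one_apply]
  rw [show (∑ y, if κ y = κ x then (1 : ℝ) else 0) = cnt κ x from rfl, div_self this, mul_one]

theorem ip_cE (κ : X → K) (f g : X → ℝ) : ip (cE κ f) g = ip f (cE κ g) := by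
  simp only [ip, cE_apply, div_mul_eq_mul_div, sum_mul, mul_div_assoc', mul_sum, sum_div]
  rw [sum_comm]
  refine sum_congr rfl (fun x _ => sum_congr rfl (fun y _ => ?_))
  by_cases h : κ x = κ y
  · simp [h, cnt]
  · simp [h, Ne.symm h]

theorem cE_tower (κ : X → K) (κ' : X → K') (h : ∀ x y, κ' x = κ' y → κ x = κ y) (f : X → ℝ) :
    cE κ' (cE κ f) = cE κ f :=
  funext (fun x => cE_of_meas _ _ _ (fun y hy => cE_congr κ f (h y x hy)))

theorem cE_tower' (κ : X → K) (κ' : X → K') (h : ∀ x y, κ' x = κ' y → κ x = κ y) (f : X → ℝ) :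
    cE κ (cE κ' f) = cE κ f :=
  ext_ip (fun k => by rw [ip_cE, ip_cE, cE_tower κ κ' h, ip_cE])

theorem cE_cE (κ : X → K) (f : X → ℝ) : cE κ (cE κ f) = cE κ f := cE_tower κ κ (fun _ _ h => h) f

theorem ip_cE_cE (κ : X → K) (f g : X → ℝ) : ip (cE κ f) (cE κ g) = ip f (cE κ g) := by
  rw [ip_cE, cE_cE]

theorem ip_cE_le (κ : X → K) (f : X → ℝ) : ip (cE κ f) (cE κ f) ≤ ip f f := by
  have h1 := two_ip_le f (cE κ f)
  rw [ip_cE_cE] at h1 ⊢
  linarith

theorem cE_comp {Y : Type*} [Fintype Y] (κ : X → K) (κ' : Y → K') (ι : Y → X)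
    (hι : Function.Injective ι) (y : Y) (hk : ∀ z, κ' z = κ' y ↔ κ (ι z) = κ (ι y))
    (hs : ∀ x, κ x = κ (ι y) → ∃ z, ι z = x) (f : X → ℝ) :
    cE κ f (ι y) = cE κ' (f ∘ ι) y := by
  have key : ∀ g : X → ℝ, (∑ x, if κ x = κ (ι y) then g x else 0) =
      ∑ z, if κ' z = κ' y then g (ι z) else 0 := by
    intro g
    symm
    refine sum_of_injOn ι (hι.injOn) (fun _ _ => mem_univ _) (fun x _ hx => ?_) (fun z _ => ?_)
    · rw [if_neg]
      intro h
      obtain ⟨z, rfl⟩ := hs x h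
      exact hx ⟨z, by simp, rfl⟩
    · simp only [hk]
  rw [cE_apply, cE_apply, cnt, cnt, key f, key (fun _ => 1)]
  rfl

theorem cE_perm (κ : X → K) (κ' : X → K') (σ : Equiv.Perm X)
    (hk : ∀ z y, κ' z = κ' y ↔ κ (σ z) = κ (σ y)) (f : X → ℝ) :
    cE κ' (f ∘ σ) = cE κ f ∘ σ :=
  funext (fun y => (cE_comp κ κ' σ σ.injective y (fun z => hk z y)
    (fun x _ => σ.surjective x) f).symm)

theorem cE_commute (κ : X → K) (κ' : X → K')
    (h : ∀ x y, κ' x = κ' y → ∃ σ : Equiv.Perm X, σ x = y ∧ (∀ z, κ' (σ z) = κ' z) ∧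
      ∀ z w, κ z = κ w ↔ κ (σ z) = κ (σ w)) (f : X → ℝ) :
    cE κ (cE κ' f) = cE κ' (cE κ f) := by
  have h1 : ∀ f : X → ℝ, cE κ' (cE κ (cE κ' f)) = cE κ (cE κ' f) := by
    intro f
    funext x
    refine cE_of_meas _ _ _ (fun y hy => ?_)
    obtain ⟨σ, rfl, h2, h3⟩ := h x y hy.symm
    have h4 : cE κ' f ∘ σ = cE κ' f := funext (fun z => cE_congr κ' f (h2 z))
    have h5 := congrFun (cE_perm κ κ σ h3 (cE κ' f)) x
    rw [h4] at h5
    exact h5.symm
  refine ext_ip (fun k => ?_)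
  rw [← h1, ip_cE, ip_cE, ip_cE, h1, ← ip_cE, ← ip_cE]

theorem sum_nonneg_of_fiber (κ : X → K) (F : X → ℝ)
    (h : ∀ x0, 0 ≤ ∑ x : {x // κ x = κ x0}, F x) : 0 ≤ ∑ x, F x := by
  rw [← sum_fiberwise_of_maps_to (t := univ.image κ) (g := κ)
    (fun x _ => mem_image_of_mem _ (mem_univ x))]
  refine sum_nonneg (fun k hk => ?_)
  obtain ⟨x0, _, rfl⟩ := mem_image.1 hk
  rw [sum_subtype (p := fun x => κ x = κ x0) _ (fun x => by simp)]
  exact h x0

theorem ip_sub_self (f g : X → ℝ) : ip (f - g) (f - g) = ip f f - 2 * ip f g + ip g g := by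
  rw [ip_sub_left, ip_sub_right, ip_sub_right, ip_comm g f]; ring

theorem neg_two_ip_le (f g : X → ℝ) : -(2 * ip f g) ≤ ip f f + ip g g := by
  have := ip_self_nonneg (f + g)
  rw [ip_add_left, ip_add_right, ip_add_right, ip_comm g f] at this
  linarith

theorem quad1 (l : X → K) (l' : X → K') (c1 : ∀ f, cE l (cE l' f) = cE l' (cE l f))
    (τ : Equiv.Perm X) (t1 : ∀ x, l (τ x) = l x) (t2 : ∀ x, l' (τ x) = l' x) (φ : X → ℝ) :
    (1 / 4) * ip (φ - φ ∘ τ) (φ - φ ∘ τ) ≤ ip (φ - cE l φ) (φ - cE l' φ) := by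
  obtain ⟨a, ha⟩ : ∃ a, a = φ - cE l φ := ⟨_, rfl⟩
  obtain ⟨w, hw⟩ : ∃ w, w = a - cE l' a := ⟨_, rfl⟩
  have hw1 : cE l a = 0 := by rw [ha, map_sub, cE_cE, sub_self]
  have h0 : ∀ g, ip a (cE l g) = 0 := fun g => by rw [← ip_cE, hw1]; simp [ip]
  have h3 : ip a a = ip a φ := by
    have : ip a (φ - cE l φ) = ip a φ := by rw [ip_sub_right, h0, sub_zero]
    rwa [← ha] at this
  have h4 : ip a (cE l' a) = ip a (cE l' φ) := by
    have : ip a (cE l' (φ - cE l φ)) = ip a (cE l' φ) := by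
      rw [map_sub, ip_sub_right, ← c1, h0, sub_zero]
    rwa [← ha] at this
  have hw2 : ip w w = ip a (φ - cE l' φ) := by
    rw [hw, ip_sub_self, ip_cE_cE, ip_sub_right, h3, h4]; ring
  have hw3 : φ - φ ∘ τ = w - w ∘ τ := by
    funext x
    simp only [hw, ha, Pi.sub_apply, Function.comp_apply, cE_congr l φ (t1 x),
      cE_congr l' _ (t2 x)]
    ring
  have hw4 := neg_two_ip_le w (w ∘ τ)
  have hw5 := ip_perm τ w w
  rw [hw3, ip_sub_self, ← ha, ← hw2]
  linarith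

theorem quad2 {L : Type*} (κ : X → K) (l : X → L) (l' : X → K')
    (hl : ∀ x y, l x = l y → κ x = κ y) (c1 : ∀ f, cE l (cE l' f) = cE l' (cE l f))
    (c2 : ∀ f, cE κ (cE l' f) = cE l' (cE κ f)) (φ : X → ℝ) :
    0 ≤ ip (cE l φ - cE κ φ) (φ - cE l' φ) := by
  have h1 := ip_cE_le l' (cE l φ - cE κ φ)
  have h2 : ∀ g, ip (cE l φ - cE κ φ) g = ip (cE l φ - cE κ φ) (cE l g - cE κ g) := by
    intro g
    rw [ip_sub_right, ← ip_cE, ← ip_cE, map_sub, map_sub, cE_cE, cE_cE, cE_tower κ l hl,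
      cE_tower' κ l hl, sub_self]
    simp [ip]
  rw [ip_cE_cE] at h1
  rw [ip_sub_right, h2 φ, h2 (cE l' φ), c1, c2, ← map_sub]
  linarith

theorem quad_lemma {L L' : Type*} (κ : X → K) (κ' : X → K') (l : X → L) (l' : X → L')
    (hl : ∀ x y, l x = l y → κ x = κ y) (hl' : ∀ x y, l' x = l' y → κ' x = κ' y)
    (c1 : ∀ f, cE l (cE l' f) = cE l' (cE l f)) (c2 : ∀ f, cE κ (cE l' f) = cE l' (cE κ f))
    (c3 : ∀ f, cE κ' (cE l f) = cE l (cE κ' f)) (τ : Equiv.Perm X)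
    (t1 : ∀ x, l (τ x) = l x) (t2 : ∀ x, l' (τ x) = l' x) (m : X → ℝ)
    (hm : ∀ x, m x = 1 ∨ (∀ f, cE l f x = cE κ f x) ∨ ∀ f, cE l' f x = cE κ' f x) (φ : X → ℝ) :
    (1 / 2) * ip (φ - φ ∘ τ) (φ - φ ∘ τ) -
      ip (m * cE l (φ - cE κ φ)) (m * cE l (φ - cE κ φ)) -
      ip (m * cE l' (φ - cE κ' φ)) (m * cE l' (φ - cE κ' φ)) ≤
      2 * ip (φ - cE κ φ) (φ - cE κ' φ) := by
  have e1 : cE l (φ - cE κ φ) = cE l φ - cE κ φ := by rw [map_sub, cE_tower κ l hl]
  have e2 : cE l' (φ - cE κ' φ) = cE l' φ - cE κ' φ := by rw [map_sub, cE_tower κ' l' hl']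
  have h1 := quad1 l l' c1 τ t1 t2 φ
  have h2 := quad2 κ l l' hl c1 c2 φ
  have h3 := quad2 κ' l' l hl' (fun f => (c1 f).symm) c3 φ
  have h4 : ip (cE l φ - cE κ φ) (cE l' φ - cE κ' φ) =
      ip (m * (cE l φ - cE κ φ)) (m * (cE l' φ - cE κ' φ)) := by
    refine sum_congr rfl (fun x _ => ?_)
    simp only [Pi.mul_apply, Pi.sub_apply]
    rcases hm x with h | h | h
    · rw [h, one_mul, one_mul]
    · rw [h φ]; ring
    · rw [h φ]; ring
  have h5 := neg_two_ip_le (m * (cE l φ - cE κ φ)) (m * (cE l' φ - cE κ' φ))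
  have s1 : φ - cE κ φ = (φ - cE l φ) + (cE l φ - cE κ φ) := by ring
  have s2 : φ - cE κ' φ = (φ - cE l' φ) + (cE l' φ - cE κ' φ) := by ring
  rw [ip_comm] at h3
  rw [e1, e2, s1, s2, ip_add_left, ip_add_right, ip_add_right]
  linarith

end CE

end Vale.Agent.P335
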