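import Mathlib

namespace Vale.Agent.P335

open Finset
open scoped Classical

variable {V : Type} [Fintype V]

/-- The labelled simple graphs on `V` with degree vector `d`. -/
abbrev Omega (d : V → ℕ) : Type := {G : SimpleGraph V // ∀ i, (G.neighborSet i).ncard = d i}

/-- The perfect matchings of the complete graph on `S`, as sets of edges. -/
noncomputable def matchings (S : Finset V) : Finset (Finset (Sym2 V)) :=
  univ.filter (fun F => (∀ e ∈ F, ¬ e.IsDiag ∧ ∀ v ∈ e, v ∈ S) ∧ ∀ v ∈ S, ∃! e, e ∈ F ∧ v ∈ e)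

/-- Replace `F` by `F'` if all edges of `F` are present and all edges of `F'` are absent. -/
noncomputable def switch (F F' : Finset (Sym2 V)) (G : SimpleGraph V) : SimpleGraph V :=
  if (∀ e ∈ F, e ∈ G.edgeSet) ∧ (∀ e ∈ F', e ∉ G.edgeSet) then
    SimpleGraph.fromEdgeSet ((G.edgeSet \ (F : Set (Sym2 V))) ∪ (F' : Set (Sym2 V)))
  else G

/-- The transition matrix of the switch chain. -/
noncomputable def chain (d : V → ℕ) : Matrix (Omega d) (Omega d) ℝ := fun G H =>
  (if G = H then 1 / 2 else 0) +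
    1 / 2 * ∑ S ∈ powersetCard 4 (univ : Finset V), 1 / ((Fintype.card V).choose 4 : ℝ) *
      ∑ p ∈ (matchings S).offDiag, 1 / 6 * (if switch p.1 p.2 G.1 = H.1 then 1 else 0)

/-- Total variation distance from the uniform distribution after `t` steps started at `G`. -/
noncomputable def tvDist (d : V → ℕ) (t : ℕ) (G : Omega d) : ℝ :=
  1 / 2 * ∑ H : Omega d, |(chain d ^ t) G H - 1 / (Fintype.card (Omega d) : ℝ)|

/-- The mixing time. -/
noncomputable def tmix (d : V → ℕ) : ℕ := sInf {t : ℕ | ∀ G : Omega d, tvDist d t G ≤ 1 / 4}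

end Vale.Agent.P335
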