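import Vale.Agent.P335.Tri

/-!
The spectral gap.
-/

namespace Vale.Agent.P335

open Finset
open scoped Classical

variable {V : Type} [Fintype V] {d : V → ℕ}

theorem psi_comm (u v : V) (φ : Omega d → ℝ) : psi u v φ = psi v u φ := by
  funext G
  rw [psi, psi, Pi.sub_apply, Pi.sub_apply]
  congr 1
  exact cE_comp (key u v) (key v u) id Function.injective_id G (fun H => by
    rw [id, id, key_eq, key_eq]; exact ⟨R.swap, R.swap⟩) (fun H _ => ⟨H, rfl⟩) φ

theorem psi_self (u : V) (φ : Omega d → ℝ) : psi u u φ = 0 := by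
  funext G
  rw [psi, Pi.sub_apply, cE_of_meas _ _ _ (fun H h => ?_), sub_self, Pi.zero_apply]
  have h1 := key_eq.1 h
  congr 1
  refine Subtype.ext (h1.eq (fun w => ?_))
  by_cases e : w = u
  · simp [e]
  · simpa using h1.both w e e

theorem rsw_deg {u v x y : V} (h : ¬ (u ≠ v ∧ x ≠ y ∧ x ≠ u ∧ x ≠ v ∧ y ≠ u ∧ y ≠ v))
    (G : Omega d) : rsw u v {x, y} G = G := by
  refine Subtype.ext ((R_rsw u v {x, y} G).eq (fun w => ?_))
  rw [rsw_pair_adj]
  split_ifs with e
  · have : x = y := by grind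
    subst this; simp
  · rfl

theorem bochner (φ : Omega d → ℝ) : 4 * ∑ u, ∑ v, ip (psi u v φ) (psi u v φ) ≤
    ip (∑ u, ∑ v, psi u v φ) (∑ u, ∑ v, psi u v φ) := by
  obtain ⟨O, hO⟩ : ∃ O : V → V → V → ℝ, ∀ u v w, O u v w =
    if u ≠ v ∧ u ≠ w ∧ v ≠ w then ip (psi u v φ) (psi u w φ) else 0 := ⟨_, fun _ _ _ => rfl⟩
  obtain ⟨D, hD⟩ : ∃ D : V → V → V → V → ℝ, ∀ u v x y, D u v x y =
    if u ≠ v ∧ x ≠ y ∧ x ≠ u ∧ x ≠ v ∧ y ≠ u ∧ y ≠ v then ip (psi u v φ) (psi x y φ) else 0 :=
    ⟨_, fun _ _ _ _ => rfl⟩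
  have z1 : ∀ f : Omega d → ℝ, ip f 0 = 0 := fun f => by simp [ip]
  have z2 : ∀ f : Omega d → ℝ, ip 0 f = 0 := fun f => by simp [ip]
  have split : ∀ u v x y, ip (psi u v φ) (psi x y φ) =
      (if x = u then if y = v then ip (psi u v φ) (psi u v φ) else 0 else 0) +
      (if x = v then if y = u then ip (psi u v φ) (psi u v φ) else 0 else 0) +
      (if x = u then O u v y else 0) + (if y = u then O u v x else 0) +
      (if x = v then O v u y else 0) + (if y = v then O v u x else 0) + D u v x y := by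
    intro u v x y
    by_cases uv : u = v
    · subst uv; simp [hO, hD, psi_self, z2]
    have vu : ¬ v = u := fun e => uv e.symm
    by_cases xy : x = y
    · subst xy
      by_cases xu : x = u
      · subst xu; simp [hO, hD, psi_self, z1, uv]
      by_cases xv : x = v
      · subst xv; simp [hO, hD, psi_self, z1, vu]
      simp [hD, psi_self, z1, xu, xv]
    have yx : ¬ y = x := fun e => xy e.symm
    by_cases xu : x = u
    · subst xu
      by_cases yv : y = v
      · subst yv; simp [hO, hD, uv, vu]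
      · simp [hO, hD, uv, yv, yx, xy, Ne.symm yv]
    by_cases xv : x = v
    · subst xv
      by_cases yu : y = u
      · subst yu; simp [hO, hD, uv, vu, psi_comm x y]
      · simp [hO, hD, vu, yu, yx, xy, Ne.symm yu, psi_comm x u]
    by_cases yu : y = u
    · subst yu; simp [hO, hD, uv, xy, xv, yx, Ne.symm xv, psi_comm x y]
    by_cases yv : y = v
    · subst yv; simp [hO, hD, vu, xy, xu, yx, Ne.symm xu, psi_comm x y, psi_comm y u]
    simp [hD, uv, xy, xu, xv, yu, yv]
  have hO0 : 0 ≤ ∑ u, ∑ v, ∑ w, O u v w := by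
    have h1 : ∑ u, ∑ v, ∑ w, O v w u = ∑ u, ∑ v, ∑ w, O u v w := by
      rw [sum_comm]
      exact sum_congr rfl (fun _ _ => sum_comm)
    have h2 : ∑ u, ∑ v, ∑ w, O w u v = ∑ u, ∑ v, ∑ w, O u v w := by
      symm
      rw [sum_comm]
      exact sum_congr rfl (fun _ _ => sum_comm)
    have h3 : 0 ≤ ∑ u, ∑ v, ∑ w, (O u v w + O v w u + O w u v) := by
      refine sum_nonneg (fun u _ => sum_nonneg (fun v _ => sum_nonneg (fun w _ => ?_)))
      by_cases e : u ≠ v ∧ u ≠ w ∧ v ≠ w
      · have := tri_inst e.1 e.2.1 e.2.2 φ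
        rw [hO, hO, hO, if_pos e, if_pos ⟨e.2.2, e.1.symm, e.2.1.symm⟩,
          if_pos ⟨e.2.1.symm, e.2.2.symm, e.1⟩, psi_comm u w, psi_comm v u, psi_comm w v,
          ip_comm (psi u v φ), ip_comm (psi v w φ), ip_comm (psi w u φ) (psi v w φ)]
        linarith
      · rw [hO, hO, hO, if_neg e, if_neg (by grind), if_neg (by grind)]; simp
    simp only [sum_add_distrib] at h3
    linarith
  have hD0 : 2 * ∑ u, ∑ v, ip (psi u v φ) (psi u v φ) ≤ ∑ u, ∑ v, ∑ x, ∑ y, D u v x y := by
    have h1 : ∑ p : V × V, ∑ q : V × V, ((1 / 2) * NN p.1 p.2 q.1 q.2 φ - PP p.1 p.2 q.1 q.2 φ -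
        PP q.1 q.2 p.1 p.2 φ) ≤ ∑ p : V × V, ∑ q : V × V, 2 * D p.1 p.2 q.1 q.2 := by
      refine sum_le_sum (fun p _ => sum_le_sum (fun q _ => ?_))
      rw [hD]
      split_ifs with e
      · exact quad_inst e.1 e.2.1 e.2.2.1 e.2.2.2.1 e.2.2.2.2.1 e.2.2.2.2.2 φ
      · have a1 : NN p.1 p.2 q.1 q.2 φ = 0 := by simp [NN, ip, rsw_deg e]
        have a2 : 0 ≤ PP p.1 p.2 q.1 q.2 φ := ip_self_nonneg _
        have a3 : 0 ≤ PP q.1 q.2 p.1 p.2 φ := ip_self_nonneg _
        linarith
    have h2 : ∑ p : V × V, ∑ q : V × V, PP q.1 q.2 p.1 p.2 φ =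
      ∑ p : V × V, ∑ q : V × V, PP p.1 p.2 q.1 q.2 φ := sum_comm
    have h3 := sum_le_sum (fun u (_ : u ∈ univ) => sum_le_sum (fun v (_ : v ∈ univ) =>
      slice_inst u v φ))
    simp only [sum_sub_distrib, ← mul_sum] at h1 h3
    rw [h2] at h1
    simp only [Fintype.sum_prod_type] at h1
    linarith
  have h4 : ∑ u, ∑ v, ∑ w, O v u w = ∑ u, ∑ v, ∑ w, O u v w := sum_comm
  simp only [ip_sum_left]
  simp only [ip_sum_right]
  rw [sum_congr rfl (fun u _ => sum_congr rfl (fun v _ => sum_congr rfl (fun x _ =>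
    sum_congr rfl (fun y _ => split u v x y))))]
  simp only [sum_add_distrib, sum_ite_irrel, sum_ite_eq', mem_univ, if_true, sum_const_zero]
  linarith

theorem improve (φ : Omega d → ℝ) (hφ : ∀ u v Z G, φ (rsw u v Z G) = φ G) (W : Finset V)
    (G H : Omega d) (hW : ∀ a b, a ∉ W → (G.1.Adj a b ↔ H.1.Adj a b)) (v w x : V) (hv : v ∈ W)
    (h1 : G.1.Adj v w) (h2 : ¬ H.1.Adj v w) (h3 : ¬ G.1.Adj v x) (h4 : H.1.Adj v x)
    (h5 : (W.filter (G.1.Adj w)).card ≤ (W.filter (G.1.Adj x)).card) :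
    ∃ G' : Omega d, φ G' = φ G ∧ (∀ a b, a ∉ W → (G'.1.Adj a b ↔ H.1.Adj a b)) ∧
      (univ.filter (fun c => ¬ (G'.1.Adj v c ↔ H.1.Adj v c))).card <
      (univ.filter (fun c => ¬ (G.1.Adj v c ↔ H.1.Adj v c))).card := by
  have hw : w ∈ W := by
    by_contra e
    exact h2 ((hW w v e).1 h1.symm).symm
  have hx : x ∈ W := by
    by_contra e
    exact h3 ((hW x v e).2 h4.symm).symm
  have vw := h1.ne
  have vx := h4.ne
  have wx : w ≠ x := fun e => h3 (e ▸ h1)
  obtain ⟨y, y1, y2, y3, y4⟩ : ∃ y ∈ W, G.1.Adj x y ∧ ¬ G.1.Adj w y ∧ y ≠ w := by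
    by_contra hc
    push Not at hc
    have : (W.filter (G.1.Adj x)).image (Equiv.swap w x) ⊂ W.filter (G.1.Adj w) := by
      refine ⟨fun c hc' => ?_, fun hs => ?_⟩
      · obtain ⟨y, hy, rfl⟩ := mem_image.1 hc'
        rw [mem_filter] at hy ⊢
        by_cases e : y = w
        · subst e; rw [Equiv.swap_apply_left]; exact ⟨hx, hy.2.symm⟩
        · rw [Equiv.swap_apply_of_ne_of_ne e hy.2.ne.symm]
          exact ⟨hy.1, by_contra fun e' => e (hc y hy.1 hy.2 e')⟩
      · obtain ⟨y, hy, e⟩ := mem_image.1 (hs (mem_filter.2 ⟨hv, h1.symm⟩))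
        rw [Equiv.swap_apply_eq_iff, Equiv.swap_apply_of_ne_of_ne vw vx] at e
        exact h3 (e ▸ (mem_filter.1 hy).2).symm
    have := card_lt_card this
    rw [card_image_of_injective _ (Equiv.injective _)] at this
    omega
  have hok : ok w x {v, y} G.1 := by
    rw [ok_pair, G.1.adj_comm w v, G.1.adj_comm x v]
    have := y2.ne
    have : v ≠ y := fun e => h3 (e ▸ y2).symm
    grind
  refine ⟨rsw w x {v, y} G, hφ _ _ _ _, fun a b ha => ?_, card_lt_card ⟨fun c hc => ?_,
    fun hc => ?_⟩⟩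
  · rw [rsw_pos hok, sw_other _ (by grind) (by grind), if_neg (by grind), hW a b ha]
  · rw [mem_filter, rsw_pos hok, sw_other _ vw vx, if_pos (by simp), Equiv.swap_apply_def] at hc
    rw [mem_filter]
    grind
  · have := hc (show w ∈ _ by simp [h1, h2])
    rw [mem_filter, rsw_pos hok, sw_other _ vw vx, if_pos (by simp), Equiv.swap_apply_left] at this
    grind

theorem connected (φ : Omega d → ℝ) (hφ : ∀ u v Z G, φ (rsw u v Z G) = φ G) (G H : Omega d) :
    φ G = φ H := by
  have main : ∀ W : Finset V, ∀ G H : Omega d, (∀ a b, a ∉ W → (G.1.Adj a b ↔ H.1.Adj a b)) →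
      φ G = φ H := by
    intro W
    induction W using Finset.induction_on with
    | empty => intro G H h; congr 1; exact Subtype.ext (by ext a b; exact h a b (by simp))
    | insert v W hv ih =>
      intro G H h
      induction e : (univ.filter (fun c => ¬ (G.1.Adj v c ↔ H.1.Adj v c))).card using
        Nat.strong_induction_on generalizing G H with
      | _ n ih2 =>
      have hc : (univ.filter (G.1.Adj v)).card = (univ.filter (H.1.Adj v)).card := by
        rw [← deg_eq, ← deg_eq, G.2, H.2]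
      by_cases hs : univ.filter (G.1.Adj v) ⊆ univ.filter (H.1.Adj v)
      · refine ih G H (fun a b ha => ?_)
        by_cases av : a = v
        · have := congrArg (b ∈ ·) (eq_of_subset_of_card_le hs hc.ge)
          simpa [av] using this
        · exact h a b (by simp [av, ha])
      have hs' : ¬ univ.filter (H.1.Adj v) ⊆ univ.filter (G.1.Adj v) :=
        fun h' => hs (eq_of_subset_of_card_le h' hc.le).symm.subset
      rw [not_subset] at hs hs'
      obtain ⟨w, w1, w2⟩ := hs
      obtain ⟨x, x1, x2⟩ := hs'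
      simp only [mem_filter, mem_univ, true_and] at w1 w2 x1 x2
      have dg : ∀ c, ((insert v W).filter (G.1.Adj c)).card =
          ((insert v W).filter (H.1.Adj c)).card := by
        intro c
        have a1 := (G.2 c).trans (H.2 c).symm
        rw [deg_split _ _ (insert v W), deg_split _ _ (insert v W),
          filter_congr (s := (insert v W)ᶜ) (q := H.1.Adj c) (fun b hb => by
            rw [G.1.adj_comm, H.1.adj_comm, h b c (mem_compl.1 hb)])] at a1
        omega
      rcases le_total ((insert v W).filter (G.1.Adj w)).card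
        ((insert v W).filter (G.1.Adj x)).card with l | l
      · obtain ⟨G', a1, a2, a3⟩ := improve φ hφ _ G H h v w x (by simp) w1 w2 x2 x1 l
        rw [← a1]
        exact ih2 _ (e ▸ a3) G' H a2 rfl
      · obtain ⟨H', a1, a2, a3⟩ := improve φ hφ _ H G (fun a b ha => (h a b ha).symm) v x w
          (by simp) x1 x2 w2 w1 (by rwa [← dg, ← dg])
        rw [← a1]
        refine ih2 _ ?_ G H' (fun a b ha => (a2 a b ha).symm) rfl
        simpa only [← e, iff_comm] using a3
  exact main univ G H (by simp)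

theorem gap (φ : Omega d → ℝ) (hφ : ∑ G, φ G = 0) :
    32 * ip φ φ ≤ ∑ u, ∑ v, ∑ x, ∑ y, NN u v x y φ := by
  let T : (Omega d → ℝ) →ₗ[ℝ] (Omega d → ℝ) := ∑ u, ∑ v, (LinearMap.id - cE (key u v))
  have hT : ∀ g, T g = ∑ u, ∑ v, psi u v g := fun g => by
    simp only [T, LinearMap.sum_apply]; rfl
  have hq : ∀ g, ip g (T g) = ∑ u, ∑ v, ip (psi u v g) (psi u v g) := fun g => by
    simp only [hT, ip_sum_right]
    refine sum_congr rfl (fun u _ => sum_congr rfl (fun v _ => ?_))
    rw [psi, ip_sub_self, ip_cE_cE, ip_sub_right]; ring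
  have h1 := eig_lower T (fun f g => by
    simp only [hT, ip_sum_left, ip_sum_right, psi, ip_sub_left, ip_sub_right, ip_cE]) 4 φ
    (fun μ g hg hμ => by
      have b := bochner g
      have nn : ∀ u v, 0 ≤ ip (psi u v g) (psi u v g) := fun _ _ => ip_self_nonneg _
      have b1 : 0 ≤ ip g (T g) := by
        rw [hq]; exact sum_nonneg (fun u _ => sum_nonneg (fun v _ => nn u v))
      rw [← hT, ← hq, hg, ip_smul_left] at b
      rw [hg] at b1
      have b2 : ip g (T g) = 0 := by rw [hg]; nlinarith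
      rw [hq, sum_eq_zero_iff_of_nonneg (fun u _ => sum_nonneg (fun v _ => nn u v))] at b2
      have b3 : ∀ u v, psi u v g = 0 := fun u v => eq_zero_of_ip
        ((sum_eq_zero_iff_of_nonneg (fun v _ => nn u v)).1 (b2 u (mem_univ _)) v (mem_univ _)).le
      have b4 := connected g (fun u v Z G => by
        have := psi_rsw u v Z g G
        rw [b3] at this
        simp only [Pi.zero_apply] at this
        linarith)
      rcases isEmpty_or_nonempty (Omega d) with hX | ⟨⟨x0⟩⟩
      · simp [ip]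
      · simp only [ip, fun x => b4 x x0, ← mul_sum, hφ, mul_zero])
  rw [hq] at h1
  have h3 := sum_le_sum (fun u (_ : u ∈ univ) => sum_le_sum (fun v (_ : v ∈ univ) =>
    slice_inst u v φ))
  have h4 : 0 ≤ ∑ u, ∑ v, ∑ x, ∑ y, PP u v x y φ := sum_nonneg (fun _ _ => sum_nonneg
    (fun _ _ => sum_nonneg (fun _ _ => sum_nonneg (fun _ _ => ip_self_nonneg _))))
  simp only [sum_sub_distrib, ← mul_sum] at h3
  linarith

end Vale.Agent.P335
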