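import Vale.Agent.P335.Three
import Vale.Agent.P335.Defs

/-!
Row exchanges on graphs.
-/

namespace Vale.Agent.P335

open Finset
open scoped Classical

variable {V : Type}

/-- Exchange the rows `u`, `v` on the columns in `Z`. -/
def sw (u v : V) (Z : Finset V) (G : SimpleGraph V) : SimpleGraph V where
  Adj a b := G.Adj (if b ∈ Z then Equiv.swap u v a else a) (if a ∈ Z then Equiv.swap u v b else b)
  symm := ⟨fun _ _ h => h.symm⟩
  loopless := ⟨fun _ h => G.irrefl h⟩

theorem sw_adj (u v : V) (Z : Finset V) (G : SimpleGraph V) (a b : V) : (sw u v Z G).Adj a b ↔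
    G.Adj (if b ∈ Z then Equiv.swap u v a else a) (if a ∈ Z then Equiv.swap u v b else b) :=
  Iff.rfl

theorem sw_comm (u v : V) (Z : Finset V) (G : SimpleGraph V) : sw u v Z G = sw v u Z G := by
  ext a b
  rw [sw_adj, sw_adj, Equiv.swap_comm]

theorem sw_left {u v : V} {Z : Finset V} (hu : u ∉ Z) (G : SimpleGraph V) (w : V) :
    (sw u v Z G).Adj u w ↔ if w ∈ Z then G.Adj v w else G.Adj u w := by
  rw [sw_adj, if_neg hu]; split_ifs <;> simp

theorem sw_right {u v : V} {Z : Finset V} (hv : v ∉ Z) (G : SimpleGraph V) (w : V) :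
    (sw u v Z G).Adj v w ↔ if w ∈ Z then G.Adj u w else G.Adj v w := by
  rw [sw_adj, if_neg hv]; split_ifs <;> simp

theorem sw_other {u v a : V} (Z : Finset V) (h1 : a ≠ u) (h2 : a ≠ v) (G : SimpleGraph V) (b : V) :
    (sw u v Z G).Adj a b ↔ G.Adj a (if a ∈ Z then Equiv.swap u v b else b) := by
  rw [sw_adj, Equiv.swap_apply_of_ne_of_ne h1 h2, ite_self]

theorem sw_out {u v a b : V} (Z : Finset V) (h1 : a ≠ u) (h2 : a ≠ v) (h3 : b ≠ u) (h4 : b ≠ v)
    (G : SimpleGraph V) : (sw u v Z G).Adj a b ↔ G.Adj a b := by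
  rw [sw_other Z h1 h2, Equiv.swap_apply_of_ne_of_ne h3 h4, ite_self]

theorem graph_ext (u v : V) {G H : SimpleGraph V} (h1 : ∀ w, G.Adj u w ↔ H.Adj u w)
    (h2 : ∀ w, G.Adj v w ↔ H.Adj v w)
    (h3 : ∀ a b, a ≠ u → a ≠ v → b ≠ u → b ≠ v → (G.Adj a b ↔ H.Adj a b)) : G = H := by
  ext a b
  by_cases a1 : a = u
  · rw [a1, h1]
  by_cases a2 : a = v
  · rw [a2, h2]
  by_cases b1 : b = u
  · rw [b1, G.adj_comm, H.adj_comm, h1]
  by_cases b2 : b = v
  · rw [b2, G.adj_comm, H.adj_comm, h2]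
  exact h3 a b a1 a2 b1 b2

theorem sw_sw {u v : V} {Z : Finset V} (hu : u ∉ Z) (hv : v ∉ Z) (G : SimpleGraph V) :
    sw u v Z (sw u v Z G) = G := by
  refine graph_ext u v (fun w => ?_) (fun w => ?_) (fun a b a1 a2 b1 b2 => ?_)
  · rw [sw_left hu, sw_left hu, sw_right hv]; split_ifs <;> rfl
  · rw [sw_right hv, sw_left hu, sw_right hv]; split_ifs <;> rfl
  · rw [sw_out Z a1 a2 b1 b2, sw_out Z a1 a2 b1 b2]

/-- The two graphs differ by a redistribution of neighbours between `u` and `v`. -/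
structure R (u v : V) (G H : SimpleGraph V) : Prop where
  out : ∀ a b, a ≠ u → a ≠ v → b ≠ u → b ≠ v → (G.Adj a b ↔ H.Adj a b)
  both : ∀ w, w ≠ u → w ≠ v → (G.Adj u w ∧ G.Adj v w ↔ H.Adj u w ∧ H.Adj v w)
  any : ∀ w, w ≠ u → w ≠ v → (G.Adj u w ∨ G.Adj v w ↔ H.Adj u w ∨ H.Adj v w)
  edge : G.Adj u v ↔ H.Adj u v

theorem R.refl (u v : V) (G : SimpleGraph V) : R u v G G :=
  ⟨fun _ _ _ _ _ _ => Iff.rfl, fun _ _ _ => Iff.rfl, fun _ _ _ => Iff.rfl, Iff.rfl⟩

theorem R.symm {u v : V} {G H : SimpleGraph V} (h : R u v G H) : R u v H G :=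
  ⟨fun a b a1 a2 b1 b2 => (h.out a b a1 a2 b1 b2).symm, fun w a b => (h.both w a b).symm,
    fun w a b => (h.any w a b).symm, h.edge.symm⟩

theorem R.trans {u v : V} {G H K : SimpleGraph V} (h : R u v G H) (h' : R u v H K) : R u v G K :=
  ⟨fun a b a1 a2 b1 b2 => (h.out a b a1 a2 b1 b2).trans (h'.out a b a1 a2 b1 b2),
    fun w a b => (h.both w a b).trans (h'.both w a b),
    fun w a b => (h.any w a b).trans (h'.any w a b), h.edge.trans h'.edge⟩

theorem R.swap {u v : V} {G H : SimpleGraph V} (h : R u v G H) : R v u G H :=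
  ⟨fun a b a1 a2 b1 b2 => h.out a b a2 a1 b2 b1,
    fun w a b => by rw [and_comm, h.both w b a, and_comm],
    fun w a b => by rw [or_comm, h.any w b a, or_comm],
    by rw [G.adj_comm, h.edge, H.adj_comm]⟩

theorem R_sw {u v : V} {Z : Finset V} (hu : u ∉ Z) (hv : v ∉ Z) (G : SimpleGraph V) :
    R u v (sw u v Z G) G := by
  refine ⟨fun a b a1 a2 b1 b2 => sw_out Z a1 a2 b1 b2 G, fun w _ _ => ?_, fun w _ _ => ?_, ?_⟩
  · rw [sw_left hu, sw_right hv]; split_ifs; exacts [and_comm, Iff.rfl]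
  · rw [sw_left hu, sw_right hv]; split_ifs; exacts [or_comm, Iff.rfl]
  · rw [sw_left hu, if_neg hv]

theorem R.eq {u v : V} {G H : SimpleGraph V} (h : R u v G H) (h1 : ∀ w, G.Adj u w ↔ H.Adj u w) :
    G = H := by
  refine graph_ext u v h1 (fun w => ?_) h.out
  by_cases a : w = u
  · rw [a, G.adj_comm, H.adj_comm, h.edge]
  by_cases b : w = v
  · simp [b]
  have := h.both w a b
  have := h.any w a b
  have := h1 w
  tauto

theorem R.card_eq {u v x : V} {G H : SimpleGraph V} (h : R u v G H) (huv : u ≠ v) (x1 : x ≠ u)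
    (x2 : x ≠ v) {Z : Finset V} (hZ : u ∈ Z ↔ v ∈ Z) :
    (Z.filter (G.Adj x)).card = (Z.filter (H.Adj x)).card := by
  by_cases hu : u ∈ Z
  · have hv : v ∈ Z.erase u := mem_erase.2 ⟨huv.symm, hZ.1 hu⟩
    rw [card_filter, card_filter, ← add_sum_erase _ _ hu, ← add_sum_erase _ _ hv,
      ← add_sum_erase _ _ hu, ← add_sum_erase _ _ hv, ← add_assoc, ← add_assoc]
    congr 1
    · have h1 := h.both x x1 x2
      have h2 := h.any x x1 x2
      rw [G.adj_comm x, G.adj_comm x, H.adj_comm x, H.adj_comm x]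
      split_ifs <;> tauto
    · refine sum_congr rfl (fun c hc => ?_)
      simp only [mem_erase] at hc
      rw [if_congr (h.out x c x1 x2 hc.2.1 hc.1) rfl rfl]
  · congr 1
    refine filter_congr (fun c hc => h.out x c x1 x2 ?_ ?_)
    · rintro rfl; exact hu hc
    · rintro rfl; exact hu (hZ.2 hc)

theorem R.resp {u v x y : V} {G H : SimpleGraph V} (h : R u v G H) (x1 : x ≠ u)
    (x2 : x ≠ v) (y1 : y ≠ u) (y2 : y ≠ v) {Z : Finset V} (hZ : u ∈ Z ↔ v ∈ Z) :
    R u v (sw x y Z G) (sw x y Z H) := by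
  have key : ∀ (p : Prop) [Decidable p] (a : V), a ≠ u → a ≠ v →
      (if p then Equiv.swap x y a else a) ≠ u ∧ (if p then Equiv.swap x y a else a) ≠ v := by
    intro p _ a a1 a2
    rw [Equiv.swap_apply_def]
    split_ifs <;> exact ⟨‹_›, ‹_›⟩
  refine ⟨fun a b a1 a2 b1 b2 => ?_, fun w a b => ?_, fun w a b => ?_, ?_⟩
  · exact h.out _ _ (key _ a a1 a2).1 (key _ a a1 a2).2 (key _ b b1 b2).1 (key _ b b1 b2).2
  · simp only [sw_other Z x1.symm y1.symm, sw_other Z x2.symm y2.symm, hZ]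
    exact h.both _ (key _ w a b).1 (key _ w a b).2
  · simp only [sw_other Z x1.symm y1.symm, sw_other Z x2.symm y2.symm, hZ]
    exact h.any _ (key _ w a b).1 (key _ w a b).2
  · rw [sw_out Z x1.symm y1.symm x2.symm y2.symm, sw_out Z x1.symm y1.symm x2.symm y2.symm, h.edge]

/-- The exchange preserves degrees. -/
def ok (u v : V) (Z : Finset V) (G : SimpleGraph V) : Prop :=
  u ∉ Z ∧ v ∉ Z ∧ (Z.filter (G.Adj u)).card = (Z.filter (G.Adj v)).card

theorem filter_sw_left {u v : V} {Z : Finset V} (hu : u ∉ Z) (G : SimpleGraph V) :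
    Z.filter ((sw u v Z G).Adj u) = Z.filter (G.Adj v) :=
  filter_congr (fun w hw => by rw [sw_left hu, if_pos hw])

theorem filter_sw_right {u v : V} {Z : Finset V} (hv : v ∉ Z) (G : SimpleGraph V) :
    Z.filter ((sw u v Z G).Adj v) = Z.filter (G.Adj u) :=
  filter_congr (fun w hw => by rw [sw_right hv, if_pos hw])

theorem ok.sw {u v : V} {Z : Finset V} {G : SimpleGraph V} (h : ok u v Z G) :
    ok u v Z (sw u v Z G) :=
  ⟨h.1, h.2.1, by rw [filter_sw_left h.1, filter_sw_right h.2.1, h.2.2]⟩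

variable [Fintype V]

theorem deg_eq (G : SimpleGraph V) (i : V) :
    (G.neighborSet i).ncard = (univ.filter (G.Adj i)).card := by
  rw [← Set.ncard_coe_finset]
  congr 1
  ext; simp

theorem deg_split (G : SimpleGraph V) (i : V) (Z : Finset V) :
    (G.neighborSet i).ncard = (Z.filter (G.Adj i)).card + (Zᶜ.filter (G.Adj i)).card := by
  rw [deg_eq, card_filter, card_filter, card_filter, sum_add_sum_compl]

theorem deg_sw_left {u v : V} {Z : Finset V} (hu : u ∉ Z) (G : SimpleGraph V) :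
    ((sw u v Z G).neighborSet u).ncard + (Z.filter (G.Adj u)).card =
      (G.neighborSet u).ncard + (Z.filter (G.Adj v)).card := by
  rw [deg_split _ _ Z, deg_split _ _ Z, filter_sw_left hu,
    filter_congr (s := Zᶜ) (q := G.Adj u)
      (fun w hw => by rw [sw_left hu, if_neg (mem_compl.1 hw)])]
  ring

theorem deg_sw {u v : V} {Z : Finset V} {G : SimpleGraph V} (h : ok u v Z G) (i : V) :
    ((sw u v Z G).neighborSet i).ncard = (G.neighborSet i).ncard := by
  by_cases h1 : i = u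
  · have := deg_sw_left (v := v) h.1 G
    have := h.2.2
    rw [h1]; omega
  by_cases h2 : i = v
  · have := deg_sw_left (v := u) h.2.1 G
    have := h.2.2
    rw [h2, sw_comm]
    omega
  rw [deg_eq, deg_eq, card_filter, card_filter]
  simp only [sw_other Z h1 h2]
  split_ifs
  · exact Equiv.sum_comp (Equiv.swap u v) (fun b => if G.Adj i b then 1 else 0)
  · rfl

variable {d : V → ℕ}

/-- The exchange as a map on realisations. -/
noncomputable def rsw (u v : V) (Z : Finset V) (G : Omega d) : Omega d :=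
  if h : ok u v Z G.1 then ⟨sw u v Z G.1, fun i => (deg_sw h i).trans (G.2 i)⟩ else G

theorem rsw_pos {u v : V} {Z : Finset V} {G : Omega d} (h : ok u v Z G.1) :
    (rsw u v Z G).1 = sw u v Z G.1 := by rw [rsw, dif_pos h]

theorem rsw_neg {u v : V} {Z : Finset V} {G : Omega d} (h : ¬ ok u v Z G.1) :
    rsw u v Z G = G := by rw [rsw, dif_neg h]

theorem rsw_rsw (u v : V) (Z : Finset V) (G : Omega d) : rsw u v Z (rsw u v Z G) = G := by
  by_cases h : ok u v Z G.1
  · refine Subtype.ext ?_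
    rw [rsw_pos (by rw [rsw_pos h]; exact h.sw), rsw_pos h, sw_sw h.1 h.2.1]
  · rw [rsw_neg h, rsw_neg h]

theorem R_rsw (u v : V) (Z : Finset V) (G : Omega d) : R u v (rsw u v Z G).1 G.1 := by
  by_cases h : ok u v Z G.1
  · rw [rsw_pos h]; exact R_sw h.1 h.2.1 _
  · rw [rsw_neg h]; exact R.refl _ _ _

theorem rsw_eq {u v : V} {Z : Finset V} (hu : u ∉ Z) (hv : v ∉ Z) {G H : Omega d}
    (h : R u v G.1 H.1) (h1 : ∀ w, H.1.Adj u w ↔ if w ∈ Z then G.1.Adj v w else G.1.Adj u w) :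
    rsw u v Z G = H := by
  have h2 : sw u v Z G.1 = H.1 :=
    ((R_sw hu hv _).trans h).eq (fun w => by rw [h1, sw_left hu])
  have h3 := deg_sw_left (v := v) hu G.1
  rw [h2, G.2, H.2] at h3
  exact Subtype.ext ((rsw_pos ⟨hu, hv, by omega⟩).trans h2)

theorem R.rsw_resp {u v x y : V} {G H : Omega d} (h : R u v G.1 H.1) (huv : u ≠ v) (x1 : x ≠ u)
    (x2 : x ≠ v) (y1 : y ≠ u) (y2 : y ≠ v) {Z : Finset V} (hZ : u ∈ Z ↔ v ∈ Z) :
    R u v (rsw x y Z G).1 (rsw x y Z H).1 := by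
  have e : ok x y Z G.1 ↔ ok x y Z H.1 := by
    simp only [ok, h.card_eq huv x1 x2 hZ, h.card_eq huv y1 y2 hZ]
  by_cases h1 : ok x y Z G.1
  · rw [rsw_pos h1, rsw_pos (e.1 h1)]; exact h.resp x1 x2 y1 y2 hZ
  · rw [rsw_neg h1, rsw_neg (mt e.2 h1)]; exact h

/-- The key of the pair `u`, `v`. -/
def key (u v : V) (G : Omega d) : Omega d → Prop := fun H => R u v G.1 H.1

omit [Fintype V] in
theorem key_eq {u v : V} {G H : Omega d} : key u v G = key u v H ↔ R u v G.1 H.1 := by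
  constructor
  · intro h
    have : key u v H H := R.refl _ _ _
    rwa [← h] at this
  · intro h
    funext K
    exact propext ⟨fun h' => h.symm.trans h', fun h' => h.trans h'⟩

end Vale.Agent.P335
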