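import Vale.Agent.P335.Graph

/-!
The slice lemma and the four-vertex lemma for graphs.
-/

namespace Vale.Agent.P335

open Finset
open scoped Classical

variable {V : Type}

theorem ok_pair (u v a b : V) (G : SimpleGraph V) : ok u v {a, b} G ↔
    (a ≠ u ∧ a ≠ v ∧ b ≠ u ∧ b ≠ v) ∧ (((G.Adj u a ↔ G.Adj v a) ∧ (G.Adj u b ↔ G.Adj v b)) ∨
      (a ≠ b ∧ (G.Adj u a ↔ G.Adj v b) ∧ (G.Adj u b ↔ G.Adj v a))) := by
  have h : (({a, b} : Finset V).filter (G.Adj u)).card = (({a, b} : Finset V).filter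
      (G.Adj v)).card ↔ (((G.Adj u a ↔ G.Adj v a) ∧ (G.Adj u b ↔ G.Adj v b)) ∨
      (a ≠ b ∧ (G.Adj u a ↔ G.Adj v b) ∧ (G.Adj u b ↔ G.Adj v a))) := by
    rw [card_filter, card_filter]
    by_cases e : a = b
    · subst e
      rw [pair_eq_singleton, sum_singleton, sum_singleton]
      by_cases h1 : G.Adj u a <;> by_cases h2 : G.Adj v a <;> simp [h1, h2]
    · rw [sum_pair e, sum_pair e]
      by_cases h1 : G.Adj u a <;> by_cases h2 : G.Adj v a <;> by_cases h3 : G.Adj u b <;>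
        by_cases h4 : G.Adj v b <;> simp [h1, h2, h3, h4, e]
  rw [ok, h]
  simp only [mem_insert, mem_singleton, not_or, ne_eq, eq_comm (a := u), eq_comm (a := v)]
  grind

/-- The switch on rows `u`, `v` and columns `x`, `y` is available. -/
def M (u v x y : V) (G : SimpleGraph V) : Prop :=
  (x ≠ u ∧ x ≠ v ∧ y ≠ u ∧ y ≠ v) ∧ ¬ (G.Adj u x ↔ G.Adj v x) ∧ ¬ (G.Adj u y ↔ G.Adj v y) ∧
    ¬ (G.Adj u x ↔ G.Adj u y)

theorem M_comm (u v x y : V) (G : SimpleGraph V) : M x y u v G ↔ M u v x y G := by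
  simp only [M, G.adj_comm x, G.adj_comm y, ne_eq, eq_comm (a := u), eq_comm (a := v)]
  grind

variable [Fintype V] {d : V → ℕ}

/-- Indicator of `M`. -/
noncomputable def mI (u v x y : V) (G : Omega d) : ℝ := if M u v x y G.1 then 1 else 0

/-- The refined key. -/
noncomputable def lk (u v x y : V) (G : Omega d) : (Omega d → Prop) × ℝ :=
  (key u v G, mI u v x y G)

/-- The heat-bath residual of a pair. -/
noncomputable def psi (u v : V) (φ : Omega d → ℝ) : Omega d → ℝ := φ - cE (key u v) φ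

/-- Dirichlet form of one switch. -/
noncomputable def NN (u v x y : V) (φ : Omega d → ℝ) : ℝ :=
  ip (φ - φ ∘ rsw u v {x, y}) (φ - φ ∘ rsw u v {x, y})

/-- The loss term. -/
noncomputable def PP (u v x y : V) (φ : Omega d → ℝ) : ℝ :=
  ip (mI u v x y * cE (lk u v x y) (psi u v φ)) (mI u v x y * cE (lk u v x y) (psi u v φ))

omit [Fintype V] in
theorem lk_eq {u v x y : V} {G H : Omega d} : lk u v x y G = lk u v x y H ↔
    R u v G.1 H.1 ∧ (M u v x y G.1 ↔ M u v x y H.1) := by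
  rw [lk, lk, Prod.mk.injEq, key_eq, mI, mI]
  split_ifs <;> simp [*]

theorem rsw_pair_adj (u v a b c : V) (G : Omega d) : (rsw u v {a, b} G).1.Adj u c ↔
    if (a ≠ u ∧ a ≠ v ∧ ¬ (G.1.Adj u a ↔ G.1.Adj v a)) ∧
      (b ≠ u ∧ b ≠ v ∧ ¬ (G.1.Adj u b ↔ G.1.Adj v b)) then G.1.Adj u (Equiv.swap a b c)
    else G.1.Adj u c := by
  have h1 := ok_pair u v a b G.1
  by_cases h : ok u v {a, b} G.1
  · rw [rsw_pos h, sw_left h.1]
    rw [h1] at h
    by_cases ca : c = a
    · subst ca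
      rw [if_pos (by simp), Equiv.swap_apply_left]
      split_ifs <;> grind
    by_cases cb : c = b
    · subst cb
      rw [if_pos (by simp), Equiv.swap_apply_right]
      split_ifs <;> grind
    rw [if_neg (by simp [ca, cb]), Equiv.swap_apply_of_ne_of_ne ca cb, ite_self]
  · rw [rsw_neg h]
    rw [h1] at h
    split_ifs with e
    · by_cases ab : a = b
      · subst ab; simp
      rw [Equiv.swap_apply_def]
      split_ifs with ca cb
      · subst ca; grind
      · subst cb; grind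
      · rfl
    · rfl

theorem slice_fiber (u v : V) (ψ : Omega d → ℝ) (G0 : Omega d) (hψ : cE (key u v) ψ G0 = 0)
    [Fintype {G : Omega d // key u v G = key u v G0}] :
    2 * ∑ G : {G : Omega d // key u v G = key u v G0}, ψ G * ψ G ≤ ∑ x, ∑ y,
      ((1 / 4) * ∑ G : {G : Omega d // key u v G = key u v G0},
        (ψ G - ψ (rsw u v {x, y} G)) * (ψ G - ψ (rsw u v {x, y} G)) -
      ∑ G : {G : Omega d // key u v G = key u v G0},
        (mI u v x y G.1 * cE (lk u v x y) ψ G) * (mI u v x y G.1 * cE (lk u v x y) ψ G)) := by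
  obtain ⟨W, hW⟩ : ∃ W : V → Prop, ∀ (G : {G : Omega d // key u v G = key u v G0}) c,
      W c ↔ c ≠ u ∧ c ≠ v ∧ ¬ (G.1.1.Adj u c ↔ G.1.1.Adj v c) := by
    refine ⟨fun c => c ≠ u ∧ c ≠ v ∧ ¬ (G0.1.Adj u c ↔ G0.1.Adj v c), fun G c => ?_⟩
    refine and_congr_right (fun a => and_congr_right (fun b => ?_))
    have h1 := (key_eq.1 G.2).both c a b
    have h2 := (key_eq.1 G.2).any c a b
    grind
  obtain ⟨z, hz⟩ : ∃ z : {G : Omega d // key u v G = key u v G0} → V → Bool,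
      ∀ G c, z G c = true ↔ G.1.1.Adj u c := ⟨fun G c => decide (G.1.1.Adj u c), by simp⟩
  obtain ⟨τ, hτ⟩ : ∃ τ : V → V → {G : Omega d // key u v G = key u v G0} →
      {G : Omega d // key u v G = key u v G0}, ∀ a b G, (τ a b G).1 = rsw u v {a, b} G.1 :=
    ⟨fun a b G => ⟨rsw u v {a, b} G.1, (key_eq.2 (R_rsw _ _ _ _)).trans G.2⟩, fun _ _ _ => rfl⟩
  have hm : ∀ a b G, mk W z a b G = mI u v a b G.1 := by
    intro a b G
    refine if_congr ?_ rfl rfl
    rw [hW G, hW G, M, ne_eq (z G a), Bool.eq_iff_iff, hz, hz]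
    grind
  have h := slice_lemma W z τ (fun G H e => Subtype.ext (Subtype.ext
    ((key_eq.1 (G.2.trans H.2.symm)).eq (fun w => by rw [← hz, ← hz, e]))))
    (fun a b G => by
      funext c
      rw [Bool.eq_iff_iff, hz, hτ, rsw_pair_adj]
      by_cases e : W a ∧ W b
      · rw [if_pos e, if_pos ⟨(hW G a).1 e.1, (hW G b).1 e.2⟩, Function.comp_apply, hz]
      · rw [if_neg e, if_neg (fun e' => e ⟨(hW G a).2 e'.1, (hW G b).2 e'.2⟩), hz])
    (fun G H c hc => by
      have e := key_eq.1 (G.2.trans H.2.symm)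
      rw [Bool.eq_iff_iff, hz, hz]
      by_cases c1 : c = u
      · simp [c1]
      by_cases c2 : c = v
      · rw [c2, e.edge]
      have h1 := e.both c c1 c2
      have h2 := e.any c c1 c2
      rw [hW G] at hc
      grind)
    (fun G H => by
      have h1 := (G.1.2 u).trans (H.1.2 u).symm
      rw [deg_eq, deg_eq] at h1
      simpa only [hz] using h1)
    (ψ ∘ Subtype.val) (by
      have h1 := cE_comp (key u v) (fun _ => ()) (Subtype.val (p := fun G => key u v G =
        key u v G0)) Subtype.val_injective ⟨G0, rfl⟩ (fun z => by simp [z.2])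
        (fun x hx => ⟨⟨x, hx⟩, rfl⟩) ψ
      rw [hψ, cE_apply, eq_comm, div_eq_zero_iff] at h1
      simpa [(cnt_pos _ _).ne'] using h1)
  refine h.trans (le_of_eq (sum_congr rfl (fun a _ => sum_congr rfl (fun b _ => ?_))))
  rw [ip, ip]
  congr 1
  · simp only [Pi.sub_apply, Function.comp_apply, hτ]
  · refine sum_congr rfl (fun G _ => ?_)
    rw [Pi.mul_apply, hm, cE_comp (lk u v a b) (mk W z a b) Subtype.val
      Subtype.val_injective G (fun H => by
        rw [hm, hm, lk, lk, Prod.mk.injEq, H.2, G.2]; simp)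
      (fun x hx => ⟨⟨x, (congrArg Prod.fst hx).trans G.2⟩, rfl⟩)]

theorem psi_rsw (u v : V) (Z : Finset V) (φ : Omega d → ℝ) (G : Omega d) :
    psi u v φ G - psi u v φ (rsw u v Z G) = φ G - φ (rsw u v Z G) := by
  simp only [psi, Pi.sub_apply, cE_congr (key u v) φ (key_eq.2 (R_rsw u v Z G))]
  ring

theorem slice_inst (u v : V) (φ : Omega d → ℝ) :
    2 * ip (psi u v φ) (psi u v φ) ≤ ∑ x, ∑ y, ((1 / 4) * NN u v x y φ - PP u v x y φ) := by
  have main := sum_nonneg_of_fiber (key (d := d) u v) (fun G => ∑ x, ∑ y,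
    ((1 / 4) * ((φ G - φ (rsw u v {x, y} G)) * (φ G - φ (rsw u v {x, y} G))) -
      (mI u v x y G * cE (lk u v x y) (psi u v φ) G) *
        (mI u v x y G * cE (lk u v x y) (psi u v φ) G))
      - 2 * (psi u v φ G * psi u v φ G)) (fun G0 => by
    rw [sum_sub_distrib, ← mul_sum, sum_comm, sub_nonneg]
    refine (@slice_fiber _ _ _ u v (psi u v φ) G0 (by rw [psi, map_sub, cE_cE, sub_self]; rfl)
      (_)).trans (le_of_eq (sum_congr rfl (fun a _ => ?_)))
    rw [sum_comm]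
    refine sum_congr rfl (fun b _ => ?_)
    simp only [psi_rsw]
    rw [sum_sub_distrib, ← mul_sum])
  rw [sum_sub_distrib, ← mul_sum, sum_comm, sub_nonneg] at main
  refine main.trans (le_of_eq (sum_congr rfl (fun a _ => ?_)))
  rw [sum_comm]
  refine sum_congr rfl (fun b _ => ?_)
  rw [sum_sub_distrib, ← mul_sum]
  rfl

theorem M_rsw {u v x y : V} {Z : Finset V} (hZ : u ∈ Z ↔ v ∈ Z) (G : Omega d) :
    M x y u v (rsw x y Z G).1 ↔ M x y u v G.1 := by
  by_cases h : ok x y Z G.1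
  · rw [rsw_pos h, M, M, sw_left h.1, sw_left h.1, sw_right h.2.1, sw_right h.2.1]
    by_cases e : u ∈ Z
    · simp only [e, hZ.1 e, if_true]; grind
    · simp only [e, mt hZ.2 e, if_false]
  · rw [rsw_neg h]

theorem exists_move {u v x y : V} (x1 : x ≠ u) (x2 : x ≠ v) (y1 : y ≠ u) (y2 : y ≠ v)
    {G H : Omega d} (h : lk x y u v G = lk x y u v H) :
    ∃ Z : Finset V, (u ∈ Z ↔ v ∈ Z) ∧ rsw x y Z G = H := by
  obtain ⟨h1, h2⟩ := lk_eq.1 h
  let D : V → Prop := fun w => ¬ (G.1.Adj x w ↔ H.1.Adj x w)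
  refine ⟨univ.filter (fun w => w ≠ x ∧ w ≠ y ∧ (D w ∨ ((w = u ∨ w = v) ∧ (D u ∨ D v)))),
    by simp [x1.symm, x2.symm, y1.symm, y2.symm]; grind,
    rsw_eq (by simp) (by simp) h1 (fun w => ?_)⟩
  simp only [mem_filter, mem_univ, true_and, D]
  by_cases w1 : w = x
  · simp [w1]
  by_cases w2 : w = y
  · simp [w2, h1.edge]
  have a1 := h1.both w w1 w2
  have a2 := h1.any w w1 w2
  have a3 := h1.both u x1.symm y1.symm
  have a4 := h1.any u x1.symm y1.symm
  have a5 := h1.both v x2.symm y2.symm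
  have a6 := h1.any v x2.symm y2.symm
  simp only [M, ne_eq, x1.symm, x2.symm, y1.symm, y2.symm, not_false_eq_true, true_and] at h2
  split_ifs with e
  · obtain ⟨-, -, e | ⟨rfl | rfl, e⟩⟩ := e
    · grind
    · grind
    · grind
  · grind

theorem quad_inst {u v x y : V} (huv : u ≠ v) (hxy : x ≠ y) (x1 : x ≠ u) (x2 : x ≠ v) (y1 : y ≠ u)
    (y2 : y ≠ v) (φ : Omega d → ℝ) :
    (1 / 2) * NN u v x y φ - PP u v x y φ - PP x y u v φ ≤ 2 * ip (psi u v φ) (psi x y φ) := by
  have cm : ∀ {u v x y : V}, u ≠ v → x ≠ u → x ≠ v → y ≠ u → y ≠ v →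
      (∀ f, cE (lk u v x y) (cE (lk (d := d) x y u v) f) = cE (lk x y u v) (cE (lk u v x y) f)) ∧
      ∀ f, cE (key u v) (cE (lk (d := d) x y u v) f) = cE (lk x y u v) (cE (key u v) f) := by
    intro u v x y huv x1 x2 y1 y2
    have k : ∀ Z : Finset V, (u ∈ Z ↔ v ∈ Z) → ∀ z w : Omega d,
        R u v z.1 w.1 ↔ R u v (rsw x y Z z).1 (rsw x y Z w).1 := fun Z hZ z w =>
      ⟨fun h => h.rsw_resp huv x1 x2 y1 y2 hZ, fun h => by
        simpa only [rsw_rsw] using h.rsw_resp huv x1 x2 y1 y2 hZ⟩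
    constructor
    · refine cE_commute _ _ (fun G H h => ?_)
      obtain ⟨Z, hZ, e⟩ := exists_move x1 x2 y1 y2 h
      refine ⟨invPerm _ (rsw_rsw x y Z), e, fun z => lk_eq.2 ⟨R_rsw _ _ _ _, M_rsw hZ _⟩,
        fun z w => ?_⟩
      rw [coe_invPerm, lk_eq, lk_eq, k Z hZ, ← M_comm u v x y (rsw x y Z z).1,
        ← M_comm u v x y (rsw x y Z w).1, M_rsw hZ, M_rsw hZ, M_comm, M_comm u v x y w.1]
    · refine cE_commute _ _ (fun G H h => ?_)
      obtain ⟨Z, hZ, e⟩ := exists_move x1 x2 y1 y2 h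
      refine ⟨invPerm _ (rsw_rsw x y Z), e, fun z => lk_eq.2 ⟨R_rsw _ _ _ _, M_rsw hZ _⟩,
        fun z w => ?_⟩
      rw [coe_invPerm, key_eq, key_eq, k Z hZ]
  have e : mI (d := d) x y u v = mI u v x y := by funext G; simp only [mI, M_comm u v x y]
  have hM : ∀ G : Omega d, M u v x y (rsw u v {x, y} G).1 ↔ M u v x y G.1 :=
    M_rsw (by simp)
  have h := quad_lemma (key u v) (key x y) (lk u v x y) (lk x y u v)
    (fun _ _ h => congrArg Prod.fst h) (fun _ _ h => congrArg Prod.fst h)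
    (cm huv x1 x2 y1 y2).1 (cm huv x1 x2 y1 y2).2 (cm hxy x1.symm y1.symm x2.symm y2.symm).2
    (invPerm _ (rsw_rsw u v {x, y})) (fun G => lk_eq.2 ⟨R_rsw _ _ _ _, hM G⟩)
    (fun G => lk_eq.2 ⟨?_, by rw [M_comm, M_comm u v x y]; exact hM G⟩) (mI u v x y)
    (fun G => ?_) φ
  · rw [PP, PP, e]
    exact h
  · rw [coe_invPerm]
    by_cases h : ok u v {x, y} G.1
    swap
    · rw [rsw_neg h]; exact R.refl _ _ _
    rw [rsw_pos h]
    have hu := fun w => sw_left (v := v) h.1 G.1 w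
    have hv := fun w => sw_right (u := u) h.2.1 G.1 w
    have h1 := ((ok_pair _ _ _ _ _).1 h).2
    refine ⟨fun a b a1 a2 b1 b2 => ?_, fun w a b => ?_, fun w a b => ?_,
      sw_out _ x1 x2 y1 y2 _⟩
    · rw [sw_adj, if_neg (by simp [b1, b2]), if_neg (by simp [a1, a2])]
    all_goals
      rw [SimpleGraph.adj_comm _ x, SimpleGraph.adj_comm _ y, G.1.adj_comm x, G.1.adj_comm y]
      by_cases w1 : w = u
      · rw [w1, hu, hu, if_pos (by simp), if_pos (by simp)]; grind
      by_cases w2 : w = v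
      · rw [w2, hv, hv, if_pos (by simp), if_pos (by simp)]; grind
      rw [sw_out _ w1 w2 x1 x2, sw_out _ w1 w2 y1 y2]
  · have aux : ∀ {u v x y : V}, (¬ (G.1.Adj u x ↔ G.1.Adj v x) → (G.1.Adj u y ↔ G.1.Adj v y)) →
        ∀ f, cE (lk u v x y) f G = cE (key u v) f G := by
      intro u v x y h f
      have k : ∀ H : Omega d, R u v H.1 G.1 → ¬ M u v x y H.1 := by
        rintro H r ⟨⟨x1, x2, y1, y2⟩, m1, m2, -⟩
        have a1 := r.both x x1 x2
        have a2 := r.any x x1 x2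
        have a3 := r.both y y1 y2
        have a4 := r.any y y1 y2
        grind
      exact cE_comp (lk u v x y) (key u v) id Function.injective_id G (fun H => by
        rw [id, id, lk_eq, key_eq]
        exact ⟨fun r => ⟨r, iff_of_false (k H r) (k G (R.refl _ _ _))⟩, fun r => r.1⟩)
        (fun H _ => ⟨H, rfl⟩) f
    by_cases h1 : M u v x y G.1
    · exact Or.inl (by simp [mI, h1])
    by_cases h2 : ¬ (G.1.Adj u x ↔ G.1.Adj v x) → (G.1.Adj u y ↔ G.1.Adj v y)
    · exact Or.inr (Or.inl (aux h2))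
    refine Or.inr (Or.inr (aux ?_))
    simp only [M, ne_eq, x1, x2, y1, y2, not_false_eq_true, true_and] at h1
    rw [G.1.adj_comm x, G.1.adj_comm y, G.1.adj_comm x, G.1.adj_comm y]
    grind

end Vale.Agent.P335
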