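import Vale.Agent.P335.Gap

/-!
Perfect matchings on four points and the switch move.
-/

namespace Vale.Agent.P335

open Finset
open scoped Classical

variable {V : Type} [Fintype V]

theorem pair_mem_matchings {a b c e : V} (ab : a ≠ b) (ac : a ≠ c) (ae : a ≠ e) (bc : b ≠ c)
    (be : b ≠ e) (ce : c ≠ e) {S : Finset V} (hS : ∀ x, x ∈ S ↔ x = a ∨ x = b ∨ x = c ∨ x = e) :
    ({s(a, b), s(c, e)} : Finset (Sym2 V)) ∈ matchings S := by
  simp only [matchings, mem_filter, mem_univ, true_and, mem_insert, mem_singleton, hS]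
  refine ⟨?_, ?_⟩
  · rintro f (rfl | rfl) <;> simp [ab, ce]
  · rintro v (rfl | rfl | rfl | rfl)
    · exact ⟨s(v, b), by simp, by rintro f ⟨rfl | rfl, h⟩ <;> simp_all⟩
    · exact ⟨s(a, v), by simp, by rintro f ⟨rfl | rfl, h⟩ <;> simp_all⟩
    · exact ⟨s(v, e), by simp, by rintro f ⟨rfl | rfl, h⟩ <;> simp_all [eq_comm]⟩
    · exact ⟨s(c, v), by simp, by rintro f ⟨rfl | rfl, h⟩ <;> simp_all [eq_comm]⟩

theorem eq_of_mem_matchings {a b c e : V} (ac : a ≠ c) (bc : b ≠ c) {S : Finset V}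
    (hS : ∀ x, x ∈ S ↔ x = a ∨ x = b ∨ x = c ∨ x = e) {F : Finset (Sym2 V)}
    (hF : F ∈ matchings S) (h : s(a, b) ∈ F) : F = {s(a, b), s(c, e)} := by
  simp only [matchings, mem_filter, mem_univ, true_and] at hF
  obtain ⟨h1, h2⟩ := hF
  have uq : ∀ v f g, f ∈ F → g ∈ F → v ∈ f → v ∈ g → f = g := fun v f g f1 g1 f2 g2 =>
    (h2 v ((h1 f f1).2 v f2)).unique ⟨f1, f2⟩ ⟨g1, g2⟩
  have h3 : s(c, e) ∈ F := by
    obtain ⟨f, ⟨f1, f2⟩, -⟩ := h2 c (by simp [hS])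
    obtain ⟨y, rfl⟩ := Sym2.mem_iff_exists.1 f2
    rcases (hS y).1 ((h1 _ f1).2 y (by simp)) with rfl | rfl | rfl | rfl
    · have := uq y _ _ f1 h (by simp) (by simp)
      simp [ac.symm, bc.symm] at this
    · have := uq y _ _ f1 h (by simp) (by simp)
      simp [ac.symm, bc.symm] at this
    · simpa using (h1 _ f1).1
    · exact f1
  ext f
  rw [mem_insert, mem_singleton]
  refine ⟨fun hf => ?_, by rintro (rfl | rfl) <;> assumption⟩
  rcases (hS _).1 ((h1 f hf).2 _ (Sym2.out_fst_mem f)) with e | e | e | e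
  · exact Or.inl (uq _ _ _ hf h (Sym2.out_fst_mem f) (by simp [e]))
  · exact Or.inl (uq _ _ _ hf h (Sym2.out_fst_mem f) (by simp [e]))
  · exact Or.inr (uq _ _ _ hf h3 (Sym2.out_fst_mem f) (by simp [e]))
  · exact Or.inr (uq _ _ _ hf h3 (Sym2.out_fst_mem f) (by simp [e]))

theorem matchings_eq {a b c e : V} (ab : a ≠ b) (ac : a ≠ c) (ae : a ≠ e) (bc : b ≠ c)
    (be : b ≠ e) (ce : c ≠ e) {S : Finset V} (hS : ∀ x, x ∈ S ↔ x = a ∨ x = b ∨ x = c ∨ x = e) :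
    matchings S = {{s(a, b), s(c, e)}, {s(a, c), s(b, e)}, {s(a, e), s(b, c)}} := by
  ext F
  rw [mem_insert, mem_insert, mem_singleton]
  refine ⟨fun hF => ?_, ?_⟩
  · have hF' := hF
    simp only [matchings, mem_filter, mem_univ, true_and] at hF'
    obtain ⟨f, ⟨f1, f2⟩, -⟩ := hF'.2 a (by simp [hS])
    obtain ⟨y, rfl⟩ := Sym2.mem_iff_exists.1 f2
    rcases (hS y).1 ((hF'.1 _ f1).2 y (by simp)) with rfl | rfl | rfl | rfl
    · simpa using (hF'.1 _ f1).1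
    · exact Or.inl (eq_of_mem_matchings ac bc hS hF f1)
    · exact Or.inr (Or.inl (eq_of_mem_matchings ab bc.symm (by grind) hF f1))
    · exact Or.inr (Or.inr (eq_of_mem_matchings ab be.symm (by grind) hF f1))
  · rintro (rfl | rfl | rfl)
    · exact pair_mem_matchings ab ac ae bc be ce hS
    · exact pair_mem_matchings ac ab ae bc.symm ce be (by grind)
    · exact pair_mem_matchings ae ab ac be.symm ce.symm bc (by grind)

omit [Fintype V] in
theorem exists_four {S : Finset V} (h : S.card = 4) : ∃ a b c e : V, a ≠ b ∧ a ≠ c ∧ a ≠ e ∧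
    b ≠ c ∧ b ≠ e ∧ c ≠ e ∧ ∀ x, x ∈ S ↔ x = a ∨ x = b ∨ x = c ∨ x = e := by
  obtain ⟨a, T, ha, rfl, hT⟩ := card_eq_succ.1 h
  obtain ⟨b, c, e, h1, h2, h3, rfl⟩ := card_eq_three.1 hT
  simp only [mem_insert, mem_singleton, not_or] at ha
  exact ⟨a, b, c, e, ha.1, ha.2.1, ha.2.2, h1, h2, h3, by simp⟩

omit [Fintype V] in
theorem pair_ne {a b c e : V} (ab : a ≠ b) (ae : a ≠ e) (bc : b ≠ c) (f : Sym2 V) :
    ({s(a, c), s(b, e)} : Finset (Sym2 V)) ≠ {s(a, b), f} ∧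
    ({s(a, b), f} : Finset (Sym2 V)) ≠ {s(a, c), s(b, e)} := by
  have : ({s(a, c), s(b, e)} : Finset (Sym2 V)) ≠ {s(a, b), f} := by
    intro h
    have : s(a, b) ∈ ({s(a, c), s(b, e)} : Finset (Sym2 V)) := by rw [h]; simp
    simp [ab, ae, bc] at this
    grind
  exact ⟨this, this.symm⟩

theorem card_offDiag {S : Finset V} (h : S.card = 4) : (matchings S).offDiag.card = 6 := by
  obtain ⟨a, b, c, e, ab, ac, ae, bc, be, ce, hS⟩ := exists_four h
  rw [offDiag_card, matchings_eq ab ac ae bc be ce hS, card_eq_three.2 ⟨_, _, _,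
    (pair_ne ab ae bc _).2, (pair_ne ab ac be _).2, ?_, rfl⟩]
  rw [Sym2.eq_swap (a := b) (b := c)]
  exact (pair_ne ac ab ce _).2

theorem exists_tuple {S : Finset V} (h : S.card = 4) {p : Finset (Sym2 V) × Finset (Sym2 V)}
    (hp : p ∈ (matchings S).offDiag) : ∃ u v x y : V, (u ≠ v ∧ x ≠ y ∧ x ≠ u ∧ x ≠ v ∧ y ≠ u ∧
      y ≠ v) ∧ p.1 = {s(u, x), s(v, y)} ∧ p.2 = {s(u, y), s(v, x)} := by
  obtain ⟨a, b, c, e, ab, ac, ae, bc, be, ce, hS⟩ := exists_four h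
  obtain ⟨F, F'⟩ := p
  rw [mem_offDiag, matchings_eq ab ac ae bc be ce hS] at hp
  simp only [mem_insert, mem_singleton] at hp
  obtain ⟨rfl | rfl | rfl, rfl | rfl | rfl, h3⟩ := hp
  · exact absurd rfl h3
  · exact ⟨a, e, b, c, by grind, by simp [Sym2.eq_swap], by simp [Sym2.eq_swap]⟩
  · exact ⟨a, c, b, e, by grind, rfl, by simp [Sym2.eq_swap]⟩
  · exact ⟨a, e, c, b, by grind, by simp [Sym2.eq_swap], by simp [Sym2.eq_swap]⟩
  · exact absurd rfl h3
  · exact ⟨a, b, c, e, by grind, rfl, rfl⟩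
  · exact ⟨a, c, e, b, by grind, by simp [Sym2.eq_swap], rfl⟩
  · exact ⟨a, b, e, c, by grind, rfl, rfl⟩
  · exact absurd rfl h3

variable {d : V → ℕ}

/-- The switch as a map on realisations. -/
noncomputable def sg (F F' : Finset (Sym2 V)) (G : Omega d) : Omega d :=
  if h : ∀ i, ((switch F F' G.1).neighborSet i).ncard = d i then ⟨_, h⟩ else G

theorem switch_tuple {u v x y : V} (h : u ≠ v ∧ x ≠ y ∧ x ≠ u ∧ x ≠ v ∧ y ≠ u ∧ y ≠ v)
    (G : Omega d) : switch {s(u, x), s(v, y)} {s(u, y), s(v, x)} G.1 =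
      (if G.1.Adj u x ∧ G.1.Adj v y ∧ ¬ G.1.Adj u y ∧ ¬ G.1.Adj v x then rsw u v {x, y} G
        else G).1 := by
  have e : ((∀ e ∈ ({s(u, x), s(v, y)} : Finset (Sym2 V)), e ∈ G.1.edgeSet) ∧
      ∀ e ∈ ({s(u, y), s(v, x)} : Finset (Sym2 V)), e ∉ G.1.edgeSet) ↔
      G.1.Adj u x ∧ G.1.Adj v y ∧ ¬ G.1.Adj u y ∧ ¬ G.1.Adj v x := by simp [and_assoc]
  rw [switch]
  by_cases c : G.1.Adj u x ∧ G.1.Adj v y ∧ ¬ G.1.Adj u y ∧ ¬ G.1.Adj v x
  · have hok : ok u v {x, y} G.1 := by rw [ok_pair]; grind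
    rw [if_pos (e.2 c), if_pos c, rsw_pos hok]
    refine graph_ext u v (fun w => ?_) (fun w => ?_) (fun a b a1 a2 b1 b2 => ?_)
    · rw [sw_left hok.1]
      have := G.1.irrefl (v := u)
      simp only [SimpleGraph.fromEdgeSet_adj, Set.mem_union, Set.mem_sdiff, SimpleGraph.mem_edgeSet,
        coe_insert, coe_singleton, Set.mem_insert_iff, Set.mem_singleton_iff, Sym2.eq_iff,
        mem_insert, mem_singleton]
      grind
    · rw [sw_right hok.2.1]
      have := G.1.irrefl (v := v)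
      simp only [SimpleGraph.fromEdgeSet_adj, Set.mem_union, Set.mem_sdiff, SimpleGraph.mem_edgeSet,
        coe_insert, coe_singleton, Set.mem_insert_iff, Set.mem_singleton_iff, Sym2.eq_iff,
        mem_insert, mem_singleton]
      grind
    · rw [sw_out _ a1 a2 b1 b2]
      have := G.1.irrefl (v := a)
      simp only [SimpleGraph.fromEdgeSet_adj, Set.mem_union, Set.mem_sdiff, SimpleGraph.mem_edgeSet,
        coe_insert, coe_singleton, Set.mem_insert_iff, Set.mem_singleton_iff, Sym2.eq_iff]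
      grind
  · rw [if_neg (mt e.1 c), if_neg c]

theorem sg_tuple {u v x y : V} (h : u ≠ v ∧ x ≠ y ∧ x ≠ u ∧ x ≠ v ∧ y ≠ u ∧ y ≠ v)
    (G : Omega d) : sg {s(u, x), s(v, y)} {s(u, y), s(v, x)} G =
      if G.1.Adj u x ∧ G.1.Adj v y ∧ ¬ G.1.Adj u y ∧ ¬ G.1.Adj v x then rsw u v {x, y} G
        else G := by
  rw [sg, dif_pos (by rw [switch_tuple h]; exact (ite _ _ _ : Omega d).2)]
  exact Subtype.ext (switch_tuple h G)

theorem sg_pair {u v x y : V} (h : u ≠ v ∧ x ≠ y ∧ x ≠ u ∧ x ≠ v ∧ y ≠ u ∧ y ≠ v)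
    (G : Omega d) (g : Omega d → ℝ) : g (sg {s(u, x), s(v, y)} {s(u, y), s(v, x)} G) +
      g (sg {s(u, y), s(v, x)} {s(u, x), s(v, y)} G) = g G + g (rsw u v {x, y} G) := by
  rw [sg_tuple h, sg_tuple (x := y) (y := x) (by grind), pair_comm y x]
  split_ifs with h1 h2 h2
  · exact absurd h1.1 h2.2.2.1
  · ring
  · rfl
  · congr 2
    symm
    refine Subtype.ext ((R_rsw u v {x, y} G).eq (fun w => ?_))
    rw [rsw_pair_adj, Equiv.swap_apply_def]
    grind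

end Vale.Agent.P335
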