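import Vale.Agent.P335.Match

/-!
From the spectral gap to the mixing time.
-/

namespace Vale.Agent.P335

open Finset Matrix
open scoped Classical

section abstract

variable {X ι : Type*} [Fintype X] [DecidableEq X]

theorem contract (I : Finset ι) (hI : 0 < I.card) (σ : ι → X → X)
    (hσ : ∀ g : X → ℝ, ∑ i ∈ I, ∑ x, g (σ i x) = I.card * ∑ x, g x)
    (P : Matrix X X ℝ) (hP : ∀ f x, (P *ᵥ f) x = (∑ i ∈ I, (f x + f (σ i x)) / 2) / I.card)
    (γ : ℝ) (hγ : ∀ φ : X → ℝ, ∑ x, φ x = 0 →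
      4 * I.card * γ * ∑ x, φ x ^ 2 ≤ ∑ i ∈ I, ∑ x, (φ x - φ (σ i x)) ^ 2)
    (t : ℕ) (φ : X → ℝ) (h : ∑ x, φ x = 0) :
    ∑ x, (P ^ t *ᵥ φ) x = 0 ∧ ∑ x, (P ^ t *ᵥ φ) x ^ 2 ≤ Real.exp (-γ) ^ t * ∑ x, φ x ^ 2 := by
  have hI' : (0 : ℝ) < I.card := by exact_mod_cast hI
  induction t with
  | zero => simp [h]
  | succ t ih =>
    rw [pow_succ', ← mulVec_mulVec]
    obtain ⟨ψ, hψ⟩ : ∃ ψ, ψ = P ^ t *ᵥ φ := ⟨_, rfl⟩
    rw [← hψ] at ih ⊢
    refine ⟨?_, ?_⟩
    · simp only [hP]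
      rw [← sum_div, sum_comm]
      simp only [← sum_div, sum_add_distrib, ih.1, hσ]
      simp
    · have a1 : ∀ x, (P *ᵥ ψ) x ^ 2 ≤ (∑ i ∈ I, ((ψ x ^ 2 + ψ (σ i x) ^ 2) / 2 -
          (ψ x - ψ (σ i x)) ^ 2 / 4)) / I.card := by
        intro x
        have := sq_sum_le_card_mul_sum_sq (s := I) (f := fun i => (ψ x + ψ (σ i x)) / 2)
        rw [sum_congr rfl (f := fun i => ((ψ x + ψ (σ i x)) / 2) ^ 2) (g := fun i =>
          (ψ x ^ 2 + ψ (σ i x) ^ 2) / 2 - (ψ x - ψ (σ i x)) ^ 2 / 4) (fun i _ => by ring)] at this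
        rw [hP, div_pow, div_le_div_iff₀ (by positivity) hI']
        nlinarith
      have a2 := sum_le_sum (fun x (_ : x ∈ univ) => a1 x)
      rw [← sum_div, sum_comm] at a2
      simp only [← sum_div, sum_add_distrib, sum_sub_distrib, hσ (fun x => ψ x ^ 2), sum_const,
        nsmul_eq_mul] at a2
      have a3 := hγ ψ ih.1
      have a4 : ∑ x, (P *ᵥ ψ) x ^ 2 ≤ (1 - γ) * ∑ x, ψ x ^ 2 := by
        refine a2.trans ?_
        rw [div_le_iff₀ hI']
        nlinarith
      have a5 : 0 ≤ ∑ x, ψ x ^ 2 := by positivity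
      have a6 := Real.add_one_le_exp (-γ)
      calc _ ≤ Real.exp (-γ) * ∑ x, ψ x ^ 2 := by nlinarith
        _ ≤ Real.exp (-γ) * (Real.exp (-γ) ^ t * ∑ x, φ x ^ 2) := by gcongr; exact ih.2
        _ = _ := by ring

theorem tv_le (I : Finset ι) (hI : 0 < I.card) (σ : ι → X → X)
    (hσ : ∀ g : X → ℝ, ∑ i ∈ I, ∑ x, g (σ i x) = I.card * ∑ x, g x)
    (P : Matrix X X ℝ) (hP : ∀ f x, (P *ᵥ f) x = (∑ i ∈ I, (f x + f (σ i x)) / 2) / I.card)
    (γ : ℝ) (hγ : ∀ φ : X → ℝ, ∑ x, φ x = 0 →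
      4 * I.card * γ * ∑ x, φ x ^ 2 ≤ ∑ i ∈ I, ∑ x, (φ x - φ (σ i x)) ^ 2)
    (t : ℕ) (x : X) : (∑ y, |(P ^ t) x y - 1 / (Fintype.card X : ℝ)|) ^ 2 ≤
      Real.exp (-γ) ^ t * Fintype.card X := by
  have hI' : (0 : ℝ) < I.card := by exact_mod_cast hI
  have hN : (0 : ℝ) < Fintype.card X := by exact_mod_cast Fintype.card_pos_iff.2 ⟨x⟩
  have h1 : ∀ c : ℝ, ∀ t : ℕ, P ^ t *ᵥ (fun _ => c) = fun _ => c := by
    intro c t
    induction t with
    | zero => simp
    | succ t ih =>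
      rw [pow_succ', ← mulVec_mulVec, ih]
      funext y
      rw [hP]
      simp only [add_self_div_two, sum_const, nsmul_eq_mul]
      field_simp
  obtain ⟨s, hs⟩ : ∃ s : X → ℝ, s = fun y =>
    if 0 ≤ (P ^ t) x y - 1 / (Fintype.card X : ℝ) then 1 else -1 := ⟨_, rfl⟩
  obtain ⟨m, hm⟩ : ∃ m : ℝ, m = (∑ y, s y) / Fintype.card X := ⟨_, rfl⟩
  have h2 : ∑ y, s y = Fintype.card X * m := by rw [hm]; field_simp
  have h3 := (contract I hI σ hσ P hP γ hγ t (s - fun _ => m) (by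
    simp [sum_sub_distrib, h2])).2
  have h4 : ∑ y, |(P ^ t) x y - 1 / (Fintype.card X : ℝ)| = (P ^ t *ᵥ (s - fun _ => m)) x := by
    rw [mulVec_sub, h1, Pi.sub_apply, hm, mulVec, dotProduct, sum_div, ← sum_sub_distrib]
    refine sum_congr rfl (fun y _ => ?_)
    rw [hs]
    dsimp only
    split_ifs with c
    · rw [abs_of_nonneg c]; ring
    · rw [abs_of_neg (not_le.1 c)]; ring
  have h5 : ∑ y, (s - fun _ => m : X → ℝ) y ^ 2 ≤ Fintype.card X := by
    have : ∀ y, (s - fun _ => m : X → ℝ) y ^ 2 = 1 - 2 * m * s y + m ^ 2 := by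
      intro y
      have : s y ^ 2 = 1 := by rw [hs]; dsimp only; split_ifs <;> norm_num
      simp only [Pi.sub_apply]
      linear_combination this
    simp only [this, sum_add_distrib, sum_sub_distrib, ← mul_sum, h2, sum_const, card_univ,
      nsmul_eq_mul]
    nlinarith [mul_nonneg hN.le (sq_nonneg m)]
  rw [h4]
  calc _ ≤ _ := single_le_sum (f := fun y => (P ^ t *ᵥ (s - fun _ => m)) y ^ 2)
        (fun _ _ => sq_nonneg _) (mem_univ x)
    _ ≤ _ := h3
    _ ≤ _ := by gcongr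

end abstract

variable {V : Type} [Fintype V] {d : V → ℕ}

/-- The index set of moves. -/
noncomputable def moves (V : Type) [Fintype V] :
    Finset (Σ _ : Finset V, Finset (Sym2 V) × Finset (Sym2 V)) :=
  (powersetCard 4 (univ : Finset V)).sigma (fun S => (matchings S).offDiag)

theorem card_moves : (moves V).card = (Fintype.card V).choose 4 * 6 := by
  rw [moves, card_sigma, sum_congr rfl (fun S hS => card_offDiag (mem_powersetCard.1 hS).2)]
  simp

theorem sum_swap_offDiag {α : Type*} (s : Finset α) (f : α × α → ℝ) :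
    ∑ p ∈ s.offDiag, f p.swap = ∑ p ∈ s.offDiag, f p :=
  sum_nbij' Prod.swap Prod.swap (by simp; tauto) (by simp; tauto) (by simp) (by simp) (by simp)

theorem moves_sum (g : Omega d → ℝ) :
    ∑ i ∈ moves V, ∑ G, g (sg i.2.1 i.2.2 G) = (moves V).card * ∑ G, g G := by
  rw [← nsmul_eq_mul, ← sum_const, moves, sum_sigma, sum_sigma]
  refine sum_congr rfl (fun S hS => ?_)
  have h := sum_swap_offDiag (matchings S) (fun p => ∑ G : Omega d, g (sg p.1 p.2 G))
  have h2 : ∑ p ∈ (matchings S).offDiag, (∑ G : Omega d, g (sg p.1 p.2 G) +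
      ∑ G : Omega d, g (sg p.2 p.1 G)) = ∑ p ∈ (matchings S).offDiag, 2 * ∑ G, g G := by
    refine sum_congr rfl (fun p hp => ?_)
    obtain ⟨u, v, x, y, h, e1, e2⟩ := exists_tuple (mem_powersetCard.1 hS).2 hp
    rw [← sum_add_distrib, e1, e2]
    simp only [sg_pair h, sum_add_distrib]
    have := Equiv.sum_comp (invPerm _ (rsw_rsw (d := d) u v {x, y})) g
    rw [coe_invPerm] at this
    rw [this, two_mul]
  rw [sum_add_distrib, ← mul_sum] at h2
  simp only [Prod.fst_swap, Prod.snd_swap] at h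
  dsimp only
  linarith

theorem chain_mulVec (f : Omega d → ℝ) (h4 : 4 ≤ Fintype.card V) (G : Omega d) :
    (chain d *ᵥ f) G = (∑ i ∈ moves V, (f G + f (sg i.2.1 i.2.2 G)) / 2) / (moves V).card := by
  have hc : (0 : ℝ) < (Fintype.card V).choose 4 := by exact_mod_cast Nat.choose_pos h4
  have e : ∀ S ∈ powersetCard 4 (univ : Finset V), ∀ p ∈ (matchings S).offDiag,
      ∑ H : Omega d, (if switch p.1 p.2 G.1 = H.1 then 1 else 0) * f H = f (sg p.1 p.2 G) := by
    intro S hS p hp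
    obtain ⟨u, v, x, y, h, e1, e2⟩ := exists_tuple (mem_powersetCard.1 hS).2 hp
    rw [e1, e2, switch_tuple h, ← sg_tuple h]
    simp [Subtype.val_inj]
  have e2 : ∀ H : Omega d, chain d G H * f H = (if G = H then f H / 2 else 0) +
      1 / (12 * ((Fintype.card V).choose 4 : ℝ)) * ∑ S ∈ powersetCard 4 (univ : Finset V),
        ∑ p ∈ (matchings S).offDiag, (if switch p.1 p.2 G.1 = H.1 then 1 else 0) * f H := by
    intro H
    simp only [chain, ← mul_sum, ← sum_mul]
    split_ifs <;> field_simp <;> ring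
  simp only [mulVec, dotProduct, e2, sum_add_distrib, ← sum_div, sum_const,
    nsmul_eq_mul, sum_ite_eq, mem_univ, if_true, ← mul_sum]
  rw [sum_comm, sum_congr rfl (fun S hS => by rw [sum_comm, sum_congr rfl (e S hS)]),
    card_moves, moves, sum_sigma]
  push_cast
  field_simp
  ring

theorem moves_gap (φ : Omega d → ℝ) (hφ : ∑ G, φ G = 0) :
    ∑ G, φ G ^ 2 ≤ 8 * ∑ i ∈ moves V, ∑ G, (φ G - φ (sg i.2.1 i.2.2 G)) ^ 2 := by
  obtain ⟨A, hA⟩ : ∃ A : Finset V → ℝ, A = fun S =>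
    ∑ p ∈ (matchings S).offDiag, ∑ G : Omega d, (φ G - φ (sg p.1 p.2 G)) ^ 2 := ⟨_, rfl⟩
  have hA0 : ∀ S, 0 ≤ A S := fun S => by rw [hA]; positivity
  have h1 : ∀ u v x y, NN u v x y φ ≤ ∑ S ∈ powersetCard 4 (univ : Finset V),
      (if u ∈ S then 1 else 0) * ((if v ∈ S then 1 else 0) * ((if x ∈ S then 1 else 0) *
        ((if y ∈ S then 1 else 0) * A S))) := by
    intro u v x y
    have nn : ∀ S ∈ powersetCard 4 (univ : Finset V), (0 : ℝ) ≤ (if u ∈ S then 1 else 0) *
        ((if v ∈ S then 1 else 0) * ((if x ∈ S then 1 else 0) *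
        ((if y ∈ S then 1 else 0) * A S))) := fun S _ => by
      have := hA0 S
      positivity
    by_cases h : u ≠ v ∧ x ≠ y ∧ x ≠ u ∧ x ≠ v ∧ y ≠ u ∧ y ≠ v
    · have hS : ({u, v, x, y} : Finset V) ∈ powersetCard 4 univ := by
        rw [mem_powersetCard, card_insert_of_notMem (by grind), card_insert_of_notMem (by grind),
          card_pair h.2.1]
        simp
      refine le_trans ?_ (single_le_sum nn hS)
      simp only [mem_insert, mem_singleton, true_or, or_true, if_true, one_mul]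
      have m1 : ({s(u, x), s(v, y)} : Finset (Sym2 V)) ∈ matchings {u, v, x, y} :=
        pair_mem_matchings (by grind) (by grind) (by grind) (by grind) (by grind) (by grind)
          (by grind)
      have m2 : ({s(u, y), s(v, x)} : Finset (Sym2 V)) ∈ matchings {u, v, x, y} :=
        pair_mem_matchings (by grind) (by grind) (by grind) (by grind) (by grind) (by grind)
          (by grind)
      have m3 : ({s(u, x), s(v, y)} : Finset (Sym2 V)) ≠ {s(u, y), s(v, x)} := by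
        rw [Sym2.eq_swap (a := v) (b := y)]
        exact (pair_ne (by grind) (by grind) (by grind) _).1
      have m4 : NN u v x y φ = ∑ p ∈ ({(({s(u, x), s(v, y)} : Finset (Sym2 V)),
          ({s(u, y), s(v, x)} : Finset (Sym2 V))), (({s(u, y), s(v, x)} : Finset (Sym2 V)),
          ({s(u, x), s(v, y)} : Finset (Sym2 V)))} : Finset _),
          ∑ G : Omega d, (φ G - φ (sg p.1 p.2 G)) ^ 2 := by
        rw [sum_pair (fun e => m3 (congrArg Prod.fst e)), ← sum_add_distrib, NN, ip]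
        refine sum_congr rfl (fun G _ => ?_)
        rw [sg_pair h G (fun H => (φ G - φ H) ^ 2)]
        simp [sq]
      rw [m4, hA]
      refine sum_le_sum_of_subset_of_nonneg (fun p hp => ?_) (fun _ _ _ => by positivity)
      rw [mem_insert, mem_singleton] at hp
      rcases hp with rfl | rfl
      · exact mem_offDiag.2 ⟨m1, m2, m3⟩
      · exact mem_offDiag.2 ⟨m2, m1, m3.symm⟩
    · refine le_trans (le_of_eq ?_) (sum_nonneg nn)
      simp [NN, ip, rsw_deg h]
  have h2 : ∀ S ∈ powersetCard 4 (univ : Finset V),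
      ∑ u, (if u ∈ S then (1 : ℝ) else 0) = 4 := fun S hS => by
    simp [(mem_powersetCard.1 hS).2]
  have h3 := (gap φ hφ).trans (sum_le_sum (fun u _ => sum_le_sum (fun v _ =>
    sum_le_sum (fun x _ => sum_le_sum (fun y _ => h1 u v x y)))))
  simp only [sum_comm (s := (univ : Finset V)) (t := powersetCard 4 (univ : Finset V)),
    ← mul_sum, ← sum_mul] at h3
  rw [sum_congr rfl (fun S hS => by rw [h2 S hS])] at h3
  simp only [← mul_sum, ip, ← sq, hA] at h3
  rw [moves, sum_sigma]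
  linarith

theorem card_Omega_le : Fintype.card (Omega d) ≤ 2 ^ (Fintype.card V ^ 2) := by
  have := Fintype.card_le_of_injective (fun (G : Omega d) (p : V × V) => G.1.Adj p.1 p.2)
    (fun G H h => Subtype.ext (by ext a b; exact iff_of_eq (congrFun h (a, b))))
  simpa [sq] using this

theorem tvDist_le (h4 : 4 ≤ Fintype.card V) (t : ℕ) (ht : 8 * Fintype.card V ^ 6 ≤ t)
    (G : Omega d) : tvDist d t G ≤ 1 / 4 := by
  obtain ⟨n, hn⟩ : ∃ n : ℝ, n = Fintype.card V := ⟨_, rfl⟩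
  have n4 : 4 ≤ n := by rw [hn]; exact_mod_cast h4
  have ht' : 8 * n ^ 6 ≤ t := by rw [hn]; exact_mod_cast ht
  have hc : ((Fintype.card V).choose 4 : ℝ) ≤ n ^ 4 / 24 := by
    have := Nat.choose_le_pow_div (α := ℝ) 4 (Fintype.card V)
    rw [hn]
    simpa [Nat.factorial] using this
  have h := tv_le (moves V) (by rw [card_moves]; have := Nat.choose_pos h4; omega)
    (fun i => sg i.2.1 i.2.2) moves_sum (chain d) (fun f => chain_mulVec f h4) (1 / (8 * n ^ 4))
    (fun φ hφ => by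
      have a1 := moves_gap φ hφ
      have a2 : 4 * ((moves V).card : ℝ) * (1 / (8 * n ^ 4)) ≤ 1 / 8 := by
        rw [card_moves, mul_one_div, div_le_iff₀ (by positivity)]
        push_cast
        linarith
      have a3 : 0 ≤ ∑ G, φ G ^ 2 := by positivity
      nlinarith) t G
  have b1 : (Fintype.card (Omega d) : ℝ) ≤ Real.exp (Real.log 2 * n ^ 2) := by
    rw [Real.exp_mul, Real.exp_log two_pos, hn]
    exact_mod_cast card_Omega_le
  have b2 : Real.exp (-(1 / (8 * n ^ 4))) ^ t ≤ Real.exp (-n ^ 2) := by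
    rw [← Real.exp_nat_mul, Real.exp_le_exp, mul_neg, neg_le_neg_iff, mul_one_div,
      le_div_iff₀ (by positivity)]
    linarith
  have b3 : Real.exp (-n ^ 2) * Real.exp (Real.log 2 * n ^ 2) ≤ 1 / 4 := by
    rw [← Real.exp_add, le_div_iff₀ four_pos]
    have c1 := Real.add_one_le_exp (-(-n ^ 2 + Real.log 2 * n ^ 2))
    have c2 := Real.log_two_lt_d9
    have c3 : 16 ≤ n ^ 2 := by nlinarith
    have c4 : 4 ≤ Real.exp (-(-n ^ 2 + Real.log 2 * n ^ 2)) := by nlinarith
    calc _ ≤ Real.exp (-n ^ 2 + Real.log 2 * n ^ 2) *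
          Real.exp (-(-n ^ 2 + Real.log 2 * n ^ 2)) := by gcongr
      _ = 1 := by rw [← Real.exp_add]; simp
  have b4 := h.trans ((mul_le_mul b2 b1 (by positivity) (by positivity)).trans b3)
  have b5 := abs_le_of_sq_le_sq' (b := 1 / 2) (b4.trans (by norm_num)) (by norm_num)
  rw [tvDist]
  linarith [b5.2]

end Vale.Agent.P335
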