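import Vale.Agent.P335.CE

/-!
The slice lemma: a quadratic form inequality on a Boolean slice.
-/

namespace Vale.Agent.P335

open Finset
open scoped Classical

variable {X C : Type*} [Fintype X] [Fintype C]

/-- An involution as a permutation. -/
def invPerm {X : Type*} (τ : X → X) (hτ : ∀ x, τ (τ x) = x) : Equiv.Perm X := ⟨τ, τ, hτ, hτ⟩

theorem coe_invPerm {X : Type*} (τ : X → X) (hτ : ∀ x, τ (τ x) = x) : ⇑(invPerm τ hτ) = τ := rfl

theorem ip_invol (τ : X → X) (hτ : ∀ x, τ (τ x) = x) (f g : X → ℝ) :
    ip (f ∘ τ) g = ip f (g ∘ τ) := by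
  rw [← ip_perm (invPerm τ hτ) f (g ∘ τ)]
  simp [ip, hτ, coe_invPerm]

/-- Indicator that the free columns `a`, `b` carry different values. -/
noncomputable def mk (W : C → Prop) (z : X → C → Bool) (a b : C) (x : X) : ℝ :=
  if W a ∧ W b ∧ z x a ≠ z x b then 1 else 0

omit [Fintype X] in
theorem slice_const (W : C → Prop) (z : X → C → Bool) (τ : C → C → X → X)
    (hz : Function.Injective z)
    (hτ : ∀ a b x, z (τ a b x) = if W a ∧ W b then z x ∘ Equiv.swap a b else z x)
    (hW : ∀ x y c, ¬ W c → z x c = z y c)
    (hc : ∀ x y, (univ.filter (fun c => z x c = true)).card =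
      (univ.filter (fun c => z y c = true)).card)
    (g : X → ℝ) (hg : ∀ a b x, g (τ a b x) = g x) (x y : X) : g x = g y := by
  induction h : (univ.filter (fun c => z x c ≠ z y c)).card using Nat.strong_induction_on
    generalizing x with
  | _ n ih =>
  by_cases hs : univ.filter (fun c => z x c = true) ⊆ univ.filter (fun c => z y c = true)
  · have := eq_of_subset_of_card_le hs (hc y x).le
    congr 1
    refine hz (funext fun c => ?_)
    have := congrArg (c ∈ ·) this
    simp only [mem_filter, mem_univ, true_and, eq_iff_iff] at this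
    exact Bool.eq_iff_iff.2 this
  · have hs' : ¬ univ.filter (fun c => z y c = true) ⊆ univ.filter (fun c => z x c = true) :=
      fun h' => hs (eq_of_subset_of_card_le h' (hc x y).le).symm.subset
    rw [not_subset] at hs hs'
    obtain ⟨a, a1, a2⟩ := hs
    obtain ⟨b, b1, b2⟩ := hs'
    simp only [mem_filter, mem_univ, true_and, Bool.not_eq_true] at a1 a2 b1 b2
    have wa : W a := by by_contra h'; have := hW x y a h'; simp_all
    have wb : W b := by by_contra h'; have := hW x y b h'; simp_all
    rw [← hg a b x]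
    refine ih _ (h ▸ card_lt_card ⟨fun c hc => ?_, fun hc => ?_⟩) _ rfl
    · simp only [mem_filter, mem_univ, true_and, hτ, wa, wb, and_self, if_true,
        Function.comp_apply] at hc ⊢
      by_cases h1 : c = a
      · subst h1; simp_all
      · by_cases h2 : c = b
        · subst h2; simp_all
        · rwa [Equiv.swap_apply_of_ne_of_ne h1 h2] at hc
    · have := hc (show a ∈ _ by simp [a1, a2])
      simp [hτ, wa, wb, a2, b2] at this

theorem slice_lemma (W : C → Prop) (z : X → C → Bool) (τ : C → C → X → X)
    (hz : Function.Injective z)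
    (hτ : ∀ a b x, z (τ a b x) = if W a ∧ W b then z x ∘ Equiv.swap a b else z x)
    (hW : ∀ x y c, ¬ W c → z x c = z y c)
    (hc : ∀ x y, (univ.filter (fun c => z x c = true)).card =
      (univ.filter (fun c => z y c = true)).card)
    (φ : X → ℝ) (hφ : ∑ x, φ x = 0) :
    2 * ip φ φ ≤ ∑ a, ∑ b, ((1 / 4) * ip (φ - φ ∘ τ a b) (φ - φ ∘ τ a b) -
      ip (mk W z a b * cE (mk W z a b) φ) (mk W z a b * cE (mk W z a b) φ)) := by
  have inv : ∀ a b x, τ a b (τ a b x) = x := by
    intro a b x
    refine hz ?_
    rw [hτ, hτ]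
    split_ifs
    · funext c; simp
    · rfl
  have mm : ∀ a b, mk W z a b * mk W z a b = mk W z a b := by
    intro a b; funext x; simp only [mk, Pi.mul_apply]; split_ifs <;> simp
  have mc : ∀ a b g, mk W z a b * cE (mk W z a b) g = cE (mk W z a b) (mk W z a b * g) :=
    fun a b g => funext fun x => (cE_mul _ _ _ _ (fun y hy => hy)).symm
  have im : ∀ m f g : X → ℝ, ip (m * f) g = ip f (m * g) := by
    intro m f g; simp only [ip, Pi.mul_apply]; exact sum_congr rfl (fun _ _ => by ring)
  let T : (X → ℝ) →ₗ[ℝ] (X → ℝ) := ∑ a, ∑ b, ((1 / 2 : ℝ) •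
    (LinearMap.id - LinearMap.funLeft ℝ ℝ (τ a b)) -
      (LinearMap.mulLeft ℝ (mk W z a b)).comp (cE (mk W z a b)))
  have hT : ∀ g, T g = ∑ a, ∑ b, ((1 / 2 : ℝ) • (g - g ∘ τ a b) -
      mk W z a b * cE (mk W z a b) g) := by
    intro g
    simp only [T, LinearMap.sum_apply]
    rfl
  have hq : ∀ g, ip g (T g) = ∑ a, ∑ b, ((1 / 4) * ip (g - g ∘ τ a b) (g - g ∘ τ a b) -
      ip (mk W z a b * cE (mk W z a b) g) (mk W z a b * cE (mk W z a b) g)) := by
    intro g
    rw [hT, ip_sum_right]
    refine sum_congr rfl (fun a _ => ?_)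
    rw [ip_sum_right]
    refine sum_congr rfl (fun b _ => ?_)
    have h1 := ip_perm (invPerm (τ a b) (inv a b)) g g
    rw [coe_invPerm] at h1
    rw [ip_sub_right, ip_smul_right, ip_sub_self, ip_sub_right, h1, im, ← mul_assoc, mm, ip_cE,
      mc, cE_cE]
    ring
  rw [← hq]
  refine eig_lower T (fun f g => ?_) 2 φ (fun μ g hg hμ => ?_)
  · rw [hT, hT, ip_sum_left, ip_sum_right]
    refine sum_congr rfl (fun a _ => ?_)
    rw [ip_sum_left, ip_sum_right]
    refine sum_congr rfl (fun b _ => ?_)
    rw [ip_sub_left, ip_sub_right, ip_smul_left, ip_smul_right, ip_sub_left, ip_sub_right,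
      ip_invol _ (inv a b), im, ip_cE, mc]
  have hinv : ∀ a b x, g (τ a b x) = g x := by
    intro a b
    by_cases hab : (W a ∧ W b) ∧ a ≠ b
    swap
    · intro x
      congr 1
      refine hz ?_
      rw [hτ]
      split_ifs with h
      · have : a = b := by tauto
        subst this; simp
      · rfl
    obtain ⟨⟨wa, wb⟩, hne⟩ := hab
    have zτ : ∀ x, z (τ a b x) = z x ∘ Equiv.swap a b := fun x => by rw [hτ, if_pos ⟨wa, wb⟩]
    have ws : ∀ c, W (Equiv.swap a b c) ↔ W c := by
      intro c
      rw [Equiv.swap_apply_def]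
      split_ifs with h1 h2
      · subst h1; tauto
      · subst h2; tauto
      · rfl
    have cj : ∀ p q x, τ p q (τ a b x) =
        τ a b (τ (Equiv.swap a b p) (Equiv.swap a b q) x) := by
      intro p q x
      refine hz ?_
      rw [zτ, hτ p q, hτ (Equiv.swap a b p), zτ, ws, ws]
      split_ifs
      · funext c
        have := congrArg (fun e : Equiv.Perm C => e c)
          (Equiv.mul_swap_eq_swap_mul (Equiv.swap a b) p q)
        simp only [Equiv.Perm.coe_mul, Function.comp_apply] at this ⊢
        rw [this]
      · rfl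
    have mj : ∀ p q x, mk W z p q (τ a b x) =
        mk W z (Equiv.swap a b p) (Equiv.swap a b q) x := by
      intro p q x
      simp only [mk, zτ, ws, Function.comp_apply]
    have ce : ∀ p q f x, cE (mk W z p q) f (τ a b x) =
        cE (mk W z (Equiv.swap a b p) (Equiv.swap a b q)) (f ∘ τ a b) x := by
      intro p q f x
      have := cE_perm (mk W z p q) (mk W z (Equiv.swap a b p) (Equiv.swap a b q))
        (invPerm (τ a b) (inv a b)) (fun x y => by
          simp only [coe_invPerm, mj]) f
      exact (congrFun this x).symm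
    have hcomm : T (g ∘ τ a b) = T g ∘ τ a b := by
      funext x
      rw [Function.comp_apply, hT, hT, ← Equiv.sum_comp (Equiv.swap a b)]
      simp only [Finset.sum_apply]
      refine sum_congr rfl (fun p _ => ?_)
      rw [← Equiv.sum_comp (Equiv.swap a b)]
      refine sum_congr rfl (fun q _ => ?_)
      simp only [Pi.sub_apply, Pi.smul_apply, Pi.mul_apply, Function.comp_apply, cj, mj, ce]
    obtain ⟨k, hk⟩ : ∃ k, k = g - g ∘ τ a b := ⟨_, rfl⟩
    have hk1 : T k = μ • k := by
      rw [hk, map_sub, hcomm, hg, smul_sub]; rfl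
    have hk2 : ∀ x, k (τ a b x) = -k x := fun x => by simp [hk, inv]
    have hk3 : ∀ x, z x a = z x b → k x = 0 := by
      intro x hx
      have h1 : τ a b x = x := hz (by
        rw [zτ]; funext c
        rw [Function.comp_apply, Equiv.swap_apply_def]
        split_ifs with h1 h2
        · rw [h1, hx]
        · rw [h2, hx]
        · rfl)
      have := hk2 x
      rw [h1] at this
      linarith
    have caseA : ∀ p q, mk W z (Equiv.swap a b p) (Equiv.swap a b q) = mk W z p q →
        cE (mk W z p q) k = 0 := by
      intro p q h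
      funext x
      have h1 := ce p q k x
      rw [h, show k ∘ τ a b = -k from funext hk2, map_neg,
        cE_congr _ _ (show mk W z p q (τ a b x) = mk W z p q x by rw [mj, h])] at h1
      simp only [Pi.neg_apply] at h1
      simp only [Pi.zero_apply]
      linarith
    have caseB : ∀ p q, (∀ x, W p → W q → z x p ≠ z x q → z x a ≠ z x b →
        z x (Equiv.swap p q a) = z x (Equiv.swap p q b)) →
        ip (mk W z p q * cE (mk W z p q) k) (mk W z p q * cE (mk W z p q) k) ≤
          (1 / 4) * ip (k - k ∘ τ p q) (k - k ∘ τ p q) := by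
      intro p q h
      have h1 : ∀ x, mk W z p q (τ p q x) = mk W z p q x := by
        intro x
        simp only [mk, hτ]
        by_cases hw : W p ∧ W q
        · simp [hw, eq_comm]
        · rw [if_neg hw]
      have h2 := cE_perm (mk W z p q) (mk W z p q)
        (invPerm (τ p q) (inv p q)) (fun x y => by
          simp only [coe_invPerm, h1]) k
      have h3 : cE (mk W z p q) (k ∘ τ p q) = cE (mk W z p q) k :=
        h2.trans (funext fun x => cE_congr _ _ (h1 x))
      have h4 : mk W z p q * cE (mk W z p q) k =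
          (1 / 2 : ℝ) • cE (mk W z p q) (mk W z p q * (k + k ∘ τ p q)) := by
        rw [← mc, map_add, h3]
        funext x; simp only [Pi.mul_apply, Pi.smul_apply, Pi.add_apply, smul_eq_mul]; ring
      rw [h4, ip_smul_left, ip_smul_right]
      have h5 := ip_cE_le (mk W z p q) (mk W z p q * (k + k ∘ τ p q))
      have h6 : ip (mk W z p q * (k + k ∘ τ p q)) (mk W z p q * (k + k ∘ τ p q)) ≤
          ip (k - k ∘ τ p q) (k - k ∘ τ p q) := by
        refine sum_le_sum (fun x _ => ?_)
        simp only [Pi.mul_apply, Pi.add_apply, Pi.sub_apply, Function.comp_apply, mk]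
        split_ifs with h7
        · by_cases h8 : z x a = z x b
          · rw [hk3 x h8]; linarith
          · rw [hk3 (τ p q x) (by
              rw [hτ, if_pos ⟨h7.1, h7.2.1⟩]; exact h x h7.1 h7.2.1 h7.2.2 h8)]
            linarith
        · rw [zero_mul, zero_mul]; exact mul_self_nonneg _
      linarith
    have sy : ∀ p q, mk W z p q = mk W z q p := by
      intro p q; funext x; simp only [mk]; congr 1; simp only [eq_iff_iff]; tauto
    have nn : ∀ p q, 0 ≤ (1 / 4) * ip (k - k ∘ τ p q) (k - k ∘ τ p q) -
        ip (mk W z p q * cE (mk W z p q) k) (mk W z p q * cE (mk W z p q) k) := by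
      intro p q
      have h0 := ip_self_nonneg (k - k ∘ τ p q)
      by_cases h : mk W z (Equiv.swap a b p) (Equiv.swap a b q) = mk W z p q
      · rw [caseA p q h]; simp only [mul_zero, ip, Pi.zero_apply, sum_const_zero] at h0 ⊢
        linarith
      · refine sub_nonneg.2 (caseB p q (fun x _ _ h1 h2 => ?_))
        have hpq : p ≠ q := fun e => h1 (by rw [e])
        have bb : ∀ s t r : Bool, s ≠ t → s ≠ r → t = r := by decide
        by_cases pa : p = a
        · subst pa
          have qb : q ≠ b := fun e => h (by rw [e]; simp [sy p b])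
          rw [Equiv.swap_apply_left, Equiv.swap_apply_of_ne_of_ne hne.symm qb.symm]
          exact bb _ _ _ h1 h2
        by_cases pb : p = b
        · subst pb
          have qa : q ≠ a := fun e => h (by rw [e]; simp [sy p a])
          rw [Equiv.swap_apply_left, Equiv.swap_apply_of_ne_of_ne hne qa.symm]
          exact bb _ _ _ h2.symm h1
        by_cases qa : q = a
        · subst qa
          rw [Equiv.swap_apply_right, Equiv.swap_apply_of_ne_of_ne (Ne.symm pb) hne.symm]
          exact bb _ _ _ h1.symm h2
        by_cases qb : q = b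
        · subst qb
          rw [Equiv.swap_apply_right, Equiv.swap_apply_of_ne_of_ne (Ne.symm pa) hne]
          exact bb _ _ _ h2.symm h1.symm
        · exact (h (by rw [Equiv.swap_apply_of_ne_of_ne pa pb,
            Equiv.swap_apply_of_ne_of_ne qa qb])).elim
    have main : ∀ p q, (p = a ∧ q = b) ∨ (p = b ∧ q = a) →
        (1 / 4) * ip (k - k ∘ τ p q) (k - k ∘ τ p q) -
        ip (mk W z p q * cE (mk W z p q) k) (mk W z p q * cE (mk W z p q) k) = ip k k := by
      intro p q h
      have h1 : k ∘ τ p q = -k := by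
        funext x
        rw [Pi.neg_apply, ← hk2, Function.comp_apply]
        congr 1
        rcases h with ⟨rfl, rfl⟩ | ⟨rfl, rfl⟩
        · rfl
        · exact hz (by rw [zτ, hτ, if_pos ⟨wb, wa⟩, Equiv.swap_comm])
      rw [caseA p q (by rcases h with ⟨rfl, rfl⟩ | ⟨rfl, rfl⟩ <;> simp [sy p q]), h1]
      simp only [ip, mul_zero, Pi.zero_apply, sum_const_zero, sub_zero, mul_sum, Pi.sub_apply,
        Pi.neg_apply]
      exact sum_congr rfl (fun _ _ => by ring)
    have h2 : 2 * ip k k ≤ ip k (T k) := by
      rw [hq]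
      refine le_trans ?_ (add_le_sum (fun p _ => sum_nonneg (fun q _ => nn p q)) (mem_univ a)
        (mem_univ b) hne)
      have s1 := single_le_sum (fun q _ => nn a q) (mem_univ b)
      have s2 := single_le_sum (fun q _ => nn b q) (mem_univ a)
      rw [main a b (Or.inl ⟨rfl, rfl⟩)] at s1
      rw [main b a (Or.inr ⟨rfl, rfl⟩)] at s2
      linarith
    rw [hk1, ip_smul_right] at h2
    have h3 : k = 0 := eq_zero_of_ip (by nlinarith [ip_self_nonneg k])
    intro x
    have := congrFun (hk.symm.trans h3) x
    simp only [Pi.sub_apply, Function.comp_apply, Pi.zero_apply] at this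
    linarith
  rcases isEmpty_or_nonempty X with hX | ⟨⟨x0⟩⟩
  · simp [ip]
  · simp only [ip, fun x => slice_const W z τ hz hτ hW hc g hinv x x0, ← mul_sum, hφ, mul_zero]

end Vale.Agent.P335
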