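import Vale.Agent.P335.Slice

/-!
The three-row lemma.
-/

namespace Vale.Agent.P335

open Finset
open scoped Classical

variable {X C : Type*} [Fintype X] [Fintype C]

theorem cE_filter {K : Type*} (κ : X → K) (f : X → ℝ) (x : X) (A : Finset X)
    (hA : ∀ y, y ∈ A ↔ κ y = κ x) : cE κ f x = (∑ y ∈ A, f y) / A.card := by
  have : A = univ.filter (fun y => κ y = κ x) := by ext y; simp [hA]
  rw [this, cE_apply, cnt, sum_filter, card_filter]
  push_cast
  rfl

theorem cheb {Y : Type*} (A : Finset Y) (u f : Y → ℝ)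
    (h : ∀ a ∈ A, ∀ b ∈ A, 0 ≤ (u a - u b) * (f a - f b)) :
    (∑ a ∈ A, u a) * (∑ a ∈ A, f a) ≤ A.card * ∑ a ∈ A, u a * f a := by
  have h1 : 0 ≤ ∑ a ∈ A, ∑ b ∈ A, (u a - u b) * (f a - f b) :=
    sum_nonneg (fun a ha => sum_nonneg (fun b hb => h a ha b hb))
  have h2 : ∀ a b, (u a - u b) * (f a - f b) = u a * f a + u b * f b - u a * f b - f a * u b :=
    fun a b => by ring
  simp only [h2, sum_sub_distrib, sum_add_distrib, sum_const, nsmul_eq_mul, ← mul_sum,
    ← sum_mul] at h1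
  linarith

/-- Exchange two rows on two columns. -/
noncomputable def rowSwap (ρ σ : Fin 3) (i j : C) (M : Fin 3 → C → Bool) : Fin 3 → C → Bool :=
  fun r c => if c = i ∨ c = j then M (Equiv.swap ρ σ r) c else M r c

/-- A family of three-row matrices with fixed margins, closed under switches. -/
structure Three (B : X → Fin 3 → C → Bool) (cs : C → ℕ) : Prop where
  inj : Function.Injective B
  col : ∀ x c, (B x 0 c).toNat + (B x 1 c).toNat + (B x 2 c).toNat = cs c
  row : ∀ x y ρ, (univ.filter (fun c => B x ρ c = true)).card =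
    (univ.filter (fun c => B y ρ c = true)).card
  cl : ∀ x ρ σ i j, B x ρ i = true → B x σ i = false → B x ρ j = false → B x σ j = true →
    ∃ y, B y = rowSwap ρ σ i j (B x)

/-- Number of holes in a row. -/
noncomputable def nn (B : X → Fin 3 → C → Bool) (cs : C → ℕ) (ρ : Fin 3) (x : X) : ℕ :=
  (univ.filter (fun c => cs c = 2 ∧ B x ρ c = false)).card

/-- Number of particles in a row. -/
noncomputable def mm (B : X → Fin 3 → C → Bool) (cs : C → ℕ) (ρ : Fin 3) (x : X) : ℕ :=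
  (univ.filter (fun c => cs c = 1 ∧ B x ρ c = true)).card

variable {B : X → Fin 3 → C → Bool} {cs : C → ℕ}

omit [Fintype X] in
theorem Three.exists_colSwap (h : Three B cs) (a b : C) (hab : cs a = cs b) (x : X) :
    ∃ y, B y = fun r => B x r ∘ Equiv.swap a b := by
  have key : ∀ p q : Fin 3 → Bool, (p 0).toNat + (p 1).toNat + (p 2).toNat =
      (q 0).toNat + (q 1).toNat + (q 2).toNat → p = q ∨ ∃ ρ σ, p ρ = true ∧ p σ = false ∧
      q ρ = false ∧ q σ = true ∧ (∀ r, p (Equiv.swap ρ σ r) = q r) ∧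
        ∀ r, q (Equiv.swap ρ σ r) = p r := by decide
  rcases key (fun r => B x r a) (fun r => B x r b) (by rw [h.col, h.col, hab]) with h1 |
    ⟨ρ, σ, h1, h2, h3, h4, h5, h6⟩
  · refine ⟨x, funext fun r => funext fun c => ?_⟩
    have := congrFun h1 r
    rw [Function.comp_apply, Equiv.swap_apply_def]
    split_ifs with e1 e2
    · rw [e1, this]
    · rw [e2, this]
    · rfl
  · obtain ⟨y, hy⟩ := h.cl x ρ σ a b h1 h2 h3 h4
    refine ⟨y, hy.trans (funext fun r => funext fun c => ?_)⟩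
    rw [rowSwap, Function.comp_apply, Equiv.swap_apply_def a b c]
    by_cases e1 : c = a
    · subst e1; simp [h5]
    · by_cases e2 : c = b
      · subst e2; simp [h6, e1]
      · simp [e1, e2]

omit [Fintype X] in
theorem Three.mn (h : Three B cs) (ρ : Fin 3) (x y : X) :
    mm B cs ρ x + nn B cs ρ y = mm B cs ρ y + nn B cs ρ x := by
  have key : ∀ x, (univ.filter (fun c => B x ρ c = true)).card + nn B cs ρ x =
      mm B cs ρ x + (univ.filter (fun c => 2 ≤ cs c)).card := by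
    intro x
    simp only [nn, mm, card_filter, ← sum_add_distrib]
    refine sum_congr rfl (fun c _ => ?_)
    rw [← h.col x c]
    have : ∀ (p : Fin 3 → Bool) (ρ : Fin 3), ((if p ρ = true then 1 else 0) +
      if (p 0).toNat + (p 1).toNat + (p 2).toNat = 2 ∧ p ρ = false then 1 else 0) =
      (if (p 0).toNat + (p 1).toNat + (p 2).toNat = 1 ∧ p ρ = true then 1 else 0) +
      if 2 ≤ (p 0).toNat + (p 1).toNat + (p 2).toNat then 1 else 0 := by decide
    convert this (fun r => B x r c) ρ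
  have h1 := key x
  have h2 := key y
  have h3 := h.row x y ρ
  omega

omit [Fintype X] in
theorem Three.nsum (h : Three B cs) (x : X) :
    ∑ ρ, nn B cs ρ x = (univ.filter (fun c => cs c = 2)).card := by
  simp only [Fin.sum_univ_three, nn, card_filter, ← sum_add_distrib]
  refine sum_congr rfl (fun c _ => ?_)
  rw [← h.col x c]
  cases B x 0 c <;> cases B x 1 c <;> cases B x 2 c <;> simp

omit [Fintype X] in
theorem Three.move (h : Three B cs) {ρ σ : Fin 3} (hne : ρ ≠ σ) {x : X} {i j : C}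
    (hp : (cs i = 1 ∧ B x ρ i = true) ∧ cs j = 2 ∧ B x ρ j = false) :
    (∃ y, B y = rowSwap ρ σ i j (B x)) ∧ ∀ y, B y = rowSwap ρ σ i j (B x) →
      ((cs i = 1 ∧ B y σ i = true) ∧ cs j = 2 ∧ B y σ j = false) ∧
      nn B cs ρ y + 1 = nn B cs ρ x ∧ nn B cs σ y = nn B cs σ x + 1 ∧
      ∀ r, r ≠ ρ → r ≠ σ → nn B cs r y = nn B cs r x := by
  obtain ⟨⟨h1, h2⟩, h3, h4⟩ := hp
  have k1 : ∀ (p : Fin 3 → Bool) (ρ σ : Fin 3), ρ ≠ σ →
      (p 0).toNat + (p 1).toNat + (p 2).toNat = 1 → p ρ = true → p σ = false := by decide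
  have k2 : ∀ (p : Fin 3 → Bool) (ρ σ : Fin 3), ρ ≠ σ →
      (p 0).toNat + (p 1).toNat + (p 2).toNat = 2 → p ρ = false → p σ = true := by decide
  have h5 := k1 (fun r => B x r i) ρ σ hne ((h.col x i).trans h1) h2
  have h6 := k2 (fun r => B x r j) ρ σ hne ((h.col x j).trans h3) h4
  refine ⟨h.cl x ρ σ i j h2 h5 h4 h6, fun y hy => ⟨by simp [hy, rowSwap, h1, h2, h3, h4], ?_, ?_,
    fun r r1 r2 => ?_⟩⟩
  · rw [nn, nn, ← card_insert_of_notMem (a := j) (by simp [hy, rowSwap, h6])]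
    congr 1
    ext c
    by_cases e1 : c = j
    · subst e1; simp [h3, h4]
    · by_cases e2 : c = i
      · subst e2; simp [h1, e1]
      · simp [hy, rowSwap, e1, e2]
  · rw [nn, nn, ← card_insert_of_notMem (a := j) (by simp [h6])]
    congr 1
    ext c
    by_cases e1 : c = j
    · subst e1; simp [hy, rowSwap, h3, h4]
    · by_cases e2 : c = i
      · subst e2; simp [h1, e1]
      · simp [hy, rowSwap, e1, e2]
  · simp [nn, hy, rowSwap, Equiv.swap_apply_of_ne_of_ne r1 r2]

theorem Three.move_sum (h : Three B cs) {ρ σ : Fin 3} (hne : ρ ≠ σ) (Γ Γ' : X → ℝ)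
    (hΓ : ∀ x y, nn B cs ρ y + 1 = nn B cs ρ x → nn B cs σ y = nn B cs σ x + 1 →
      (∀ r, r ≠ ρ → r ≠ σ → nn B cs r y = nn B cs r x) → Γ x = Γ' y) :
    ∑ x, (mm B cs ρ x * nn B cs ρ x : ℝ) * Γ x = ∑ x, (mm B cs σ x * nn B cs σ x : ℝ) * Γ' x := by
  let P : Fin 3 → X × C × C → Prop := fun r t =>
    (cs t.2.1 = 1 ∧ B t.1 r t.2.1 = true) ∧ cs t.2.2 = 2 ∧ B t.1 r t.2.2 = false
  have key : ∀ r (G : X → ℝ), ∑ x, (mm B cs r x * nn B cs r x : ℝ) * G x =
      ∑ t ∈ univ.filter (P r), G t.1 := by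
    intro r G
    rw [sum_filter, Fintype.sum_prod_type]
    refine sum_congr rfl (fun x _ => ?_)
    rw [Fintype.sum_prod_type, mm, nn, card_filter, card_filter]
    push_cast
    rw [sum_mul_sum, sum_mul]
    refine sum_congr rfl (fun i _ => ?_)
    rw [sum_mul]
    refine sum_congr rfl (fun j _ => ?_)
    by_cases h1 : cs i = 1 ∧ B x r i = true <;> by_cases h2 : cs j = 2 ∧ B x r j = false <;>
      simp [h1, h2]
  let mv : Fin 3 → Fin 3 → X × C × C → X × C × C := fun r s t =>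
    (if e : ∃ y, B y = rowSwap r s t.2.1 t.2.2 (B t.1) then e.choose else t.1, t.2)
  have m1 : ∀ r s, r ≠ s → ∀ t, P r t → B (mv r s t).1 = rowSwap r s t.2.1 t.2.2 (B t.1) := by
    intro r s hrs t ht
    have := (h.move hrs ht).1
    simp only [mv, dif_pos this]
    exact this.choose_spec
  have m2 : ∀ r s, r ≠ s → ∀ t, P r t → P s (mv r s t) :=
    fun r s hrs t ht => ((h.move hrs ht).2 _ (m1 r s hrs t ht)).1
  have m3 : ∀ r s, r ≠ s → ∀ t, P r t → mv s r (mv r s t) = t := by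
    intro r s hrs t ht
    refine Prod.ext (h.inj ?_) rfl
    rw [m1 s r hrs.symm _ (m2 r s hrs t ht), m1 r s hrs t ht]
    funext a c
    simp only [rowSwap, mv, Equiv.swap_comm s r]
    split_ifs <;> simp
  rw [key, key]
  refine sum_nbij' (mv ρ σ) (mv σ ρ) (fun t ht => ?_) (fun t ht => ?_) (fun t ht => ?_)
    (fun t ht => ?_) (fun t ht => ?_)
  all_goals simp only [mem_filter, mem_univ, true_and] at ht ⊢
  · exact m2 _ _ hne t ht
  · exact m2 _ _ hne.symm t ht
  · exact m3 _ _ hne t ht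
  · exact m3 _ _ hne.symm t ht
  · obtain ⟨_, a1, a2, a3⟩ := (h.move hne ht).2 _ (m1 _ _ hne t ht)
    exact hΓ _ _ a1 a2 a3

omit [Fintype X] in
theorem Three.interval (h : Three B cs) (ρ : Fin 3) (x y : X) (hlt : nn B cs ρ x < nn B cs ρ y) :
    ∃ x', nn B cs ρ x' = nn B cs ρ x + 1 := by
  have h1 : ∃ r, nn B cs r y < nn B cs r x := by
    by_contra hc
    push Not at hc
    have := sum_lt_sum (fun r _ => hc r) ⟨ρ, mem_univ _, hlt⟩
    rw [h.nsum, h.nsum] at this
    exact lt_irrefl _ this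
  obtain ⟨r, hr⟩ := h1
  have hne : r ≠ ρ := by rintro rfl; omega
  have h2 := h.mn r x y
  obtain ⟨i, hi⟩ := card_pos.1 (show 0 < mm B cs r x by omega)
  obtain ⟨j, hj⟩ := card_pos.1 (show 0 < nn B cs r x by omega)
  simp only [mem_filter, mem_univ, true_and] at hi hj
  obtain ⟨⟨z, hz⟩, h3⟩ := h.move hne ⟨hi, hj⟩
  exact ⟨z, (h3 z hz).2.2.1⟩

omit [Fintype X] in
theorem Three.lip (h : Three B cs) (ρ : Fin 3) (F : X → ℝ) (Λ : ℝ)
    (h0 : ∀ x y, nn B cs ρ x = nn B cs ρ y → F x = F y)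
    (h1 : ∀ x y, nn B cs ρ y = nn B cs ρ x + 1 → |F y - F x| ≤ Λ) (k : ℕ) (x y : X)
    (hk : nn B cs ρ y = nn B cs ρ x + k) : |F y - F x| ≤ Λ * k := by
  induction k generalizing x with
  | zero => simp [h0 x y hk.symm]
  | succ k ih =>
    obtain ⟨x', hx'⟩ := h.interval ρ x y (by omega)
    have a1 := ih x' (by omega)
    have a2 := h1 x x' hx'
    have a3 := abs_sub_le (F y) (F x') (F x)
    push_cast
    linarith

theorem Three.step (h : Three B cs) {ρ σ τ : Fin 3} (h1 : ρ ≠ σ) (h2 : ρ ≠ τ) (h3 : σ ≠ τ)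
    (F G : X → ℝ) (Λ : ℝ)
    (hF : ∀ k x y, nn B cs σ y = nn B cs σ x + k → |F y - F x| ≤ Λ * k)
    (hG : ∀ k x y, nn B cs τ y = nn B cs τ x + k → |G y - G x| ≤ Λ * k)
    (x0 y0 : X) (h0 : nn B cs ρ y0 = nn B cs ρ x0 + 1) :
    cE (nn B cs ρ) (F + G) y0 - cE (nn B cs ρ) (F + G) x0 ≤ Λ := by
  obtain ⟨A, hA⟩ : ∃ A : Finset X, ∀ y, y ∈ A ↔ nn B cs ρ y = nn B cs ρ x0 :=
    ⟨univ.filter (fun y => nn B cs ρ y = nn B cs ρ x0), fun y => by simp⟩
  obtain ⟨A', hA'⟩ : ∃ A : Finset X, ∀ y, y ∈ A ↔ nn B cs ρ y = nn B cs ρ y0 :=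
    ⟨univ.filter (fun y => nn B cs ρ y = nn B cs ρ y0), fun y => by simp⟩
  rw [cE_filter _ _ _ A hA, cE_filter _ _ _ A' hA']
  obtain ⟨Y, hY⟩ : ∃ Y : ℝ, Y = mm B cs ρ y0 * nn B cs ρ y0 := ⟨_, rfl⟩
  have hY0 : 0 < Y := by
    have := h.mn ρ x0 y0
    rw [hY]
    exact_mod_cast Nat.mul_pos (by omega) (by omega)
  have mv : ∀ s, ρ ≠ s → ∀ Γ Γ' : X → ℝ, (∀ x y, nn B cs s y = nn B cs s x + 1 →
      (∀ r, r ≠ ρ → r ≠ s → nn B cs r y = nn B cs r x) → Γ x = Γ' y) →
      Y * ∑ x ∈ A', Γ x = ∑ x ∈ A, (mm B cs s x * nn B cs s x : ℝ) * Γ' x := by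
    intro s hs Γ Γ' hΓ
    have := h.move_sum hs (fun x => if x ∈ A' then Γ x else 0) (fun x => if x ∈ A then Γ' x else 0)
      (fun x y a1 a2 a3 => by
        rw [hΓ x y a2 a3]
        exact if_congr (by rw [hA, hA']; omega) rfl rfl)
    simp only [mul_ite, mul_zero, sum_ite_mem, univ_inter] at this
    rw [← this, mul_sum]
    refine sum_congr rfl (fun x hx => ?_)
    have a1 := (hA' x).1 hx
    have a2 := h.mn ρ x y0
    rw [hY, a1, show mm B cs ρ x = mm B cs ρ y0 by omega]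
  have F0 : ∀ x y, nn B cs σ y = nn B cs σ x → F x = F y := fun x y e => by
    have := hF 0 x y e
    simp only [Nat.cast_zero, mul_zero, abs_nonpos_iff] at this
    linarith
  have G0 : ∀ x y, nn B cs τ y = nn B cs τ x → G x = G y := fun x y e => by
    have := hG 0 x y e
    simp only [Nat.cast_zero, mul_zero, abs_nonpos_iff] at this
    linarith
  have e1 := mv τ h2 F F (fun x y _ a => F0 x y (a σ h1.symm h3))
  have e2 := mv σ h1 G G (fun x y _ a => G0 x y (a τ h2.symm h3.symm))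
  have e3 := mv τ h2 1 1 (fun _ _ _ _ => rfl)
  have e4 := mv σ h1 1 1 (fun _ _ _ _ => rfl)
  have e5 := mv τ h2 (fun x => nn B cs σ x) (fun x => nn B cs σ x)
    (fun x y _ a => by rw [a σ h1.symm h3])
  have e6 := mv σ h1 (fun x => nn B cs σ x + 1) (fun x => nn B cs σ x)
    (fun x y a _ => by rw [a]; push_cast; ring)
  have hs : ∀ a ∈ A, ∀ b ∈ A, nn B cs σ a + nn B cs τ a = nn B cs σ b + nn B cs τ b := by
    intro a ha b hb
    have k : ∀ (ρ σ τ : Fin 3), ρ ≠ σ → ρ ≠ τ → σ ≠ τ → (univ : Finset (Fin 3)) = {ρ, σ, τ} := by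
      decide
    have s1 := (h.nsum a).trans (h.nsum b).symm
    rw [k ρ σ τ h1 h2 h3, sum_insert (by simp [h1, h2]), sum_pair h3,
      sum_insert (by simp [h1, h2]), sum_pair h3, (hA a).1 ha, (hA b).1 hb] at s1
    omega
  have mono : ∀ r a b, nn B cs r a ≤ nn B cs r b →
      (mm B cs r a * nn B cs r a : ℝ) ≤ mm B cs r b * nn B cs r b := by
    intro r a b e
    have := h.mn r a b
    exact_mod_cast Nat.mul_le_mul (by omega) e
  have wl : ∀ (Q : X → X → ℝ), (∀ a b, Q a b = Q b a) →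
      (∀ a ∈ A, ∀ b ∈ A, ∀ k, nn B cs σ b = nn B cs σ a + k → 0 ≤ Q a b) →
      ∀ a ∈ A, ∀ b ∈ A, 0 ≤ Q a b := by
    intro Q q1 q2 a ha b hb
    rcases le_total (nn B cs σ a) (nn B cs σ b) with e | e
    · exact q2 a ha b hb _ (Nat.add_sub_cancel' e).symm
    · rw [q1]; exact q2 b hb a ha _ (Nat.add_sub_cancel' e).symm
  have c1 := cheb A (fun x => (mm B cs τ x * nn B cs τ x : ℝ))
    (fun x => -(Λ * nn B cs σ x) - F x) (wl _ (fun a b => by ring) (fun a ha b hb k e => by
      have a1 := abs_le.1 (hF k a b e)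
      have a2 := mono τ b a (by have := hs a ha b hb; omega)
      refine mul_nonneg (by linarith) ?_
      rw [e]; push_cast; linarith))
  have c2 := cheb A (fun x => (mm B cs σ x * nn B cs σ x : ℝ))
    (fun x => Λ * nn B cs σ x - G x) (wl _ (fun a b => by ring) (fun a ha b hb k e => by
      have a1 := abs_le.1 (hG k b a (by have := hs a ha b hb; omega))
      have a2 := mono σ a b (by omega)
      refine mul_nonneg_of_nonpos_of_nonpos (by linarith) ?_
      rw [e]; push_cast; linarith))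
  simp only [Pi.one_apply, mul_one, sum_const, nsmul_eq_mul, sum_add_distrib] at e3 e4 e6
  simp only [mul_sub, mul_neg, sum_sub_distrib, sum_neg_distrib, mul_left_comm _ Λ, ← mul_sum]
    at c1 c2
  rw [← e1, ← e3, ← e5] at c1
  rw [← e2, ← e4, ← e6] at c2
  have p1 : (0 : ℝ) < A.card := by exact_mod_cast card_pos.2 ⟨x0, (hA _).2 rfl⟩
  have p2 : (0 : ℝ) < A'.card := by exact_mod_cast card_pos.2 ⟨y0, (hA' _).2 rfl⟩
  simp only [Pi.add_apply, sum_add_distrib]
  rw [div_sub_div _ _ p2.ne' p1.ne', div_le_iff₀ (mul_pos p2 p1)]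
  refine le_of_mul_le_mul_left ?_ hY0
  linarith

omit [Fintype X] in
theorem Three.row_const (h : Three B cs) (ρ : Fin 3) (F : X → ℝ)
    (h1 : ∀ x y, B x ρ = B y ρ → F x = F y)
    (h2 : ∀ a b x y, cs a = cs b → (B y = fun r => B x r ∘ Equiv.swap a b) → F y = F x)
    (x y : X) (hn : nn B cs ρ x = nn B cs ρ y) : F x = F y := by
  induction e : (univ.filter (fun c => B x ρ c ≠ B y ρ c)).card using Nat.strong_induction_on
    generalizing x with
  | _ n ih =>
  have step : ∀ a b, cs a = cs b → B x ρ a ≠ B y ρ a → B x ρ b = B y ρ a → B x ρ a = B y ρ b →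
      F x = F y := by
    intro a b hab a1 a2 a3
    obtain ⟨x', hx'⟩ := h.exists_colSwap a b hab x
    rw [← h2 a b x x' hab hx']
    refine ih _ ?_ x' ?_ rfl
    rw [← e]
    refine card_lt_card ⟨fun c hc => ?_, fun hc => ?_⟩
    · simp only [mem_filter, mem_univ, true_and, hx', Function.comp_apply] at hc ⊢
      by_cases e1 : c = a
      · subst e1; exact a1
      · by_cases e2 : c = b
        · subst e2; simp [a3] at hc
        · rwa [Equiv.swap_apply_of_ne_of_ne e1 e2] at hc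
    · have := hc (show a ∈ _ by simpa using a1)
      simp [hx', a2] at this
    · rw [← hn, nn, nn]
      refine card_bij' (fun c _ => Equiv.swap a b c) (fun c _ => Equiv.swap a b c) ?_ ?_
        (by simp) (by simp)
      all_goals
        intro c hc
        simp only [mem_filter, mem_univ, true_and, hx', Function.comp_apply,
          Equiv.swap_apply_self] at hc ⊢
        refine ⟨?_, hc.2⟩
        rw [← hc.1, Equiv.swap_apply_def]
        split_ifs with e1 e2
        · rw [e1, hab]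
        · rw [e2, hab]
        · rfl
  have gen : ∀ (s : ℕ) (v : Bool), (univ.filter (fun c => cs c = s ∧ B x ρ c = v)).card =
      (univ.filter (fun c => cs c = s ∧ B y ρ c = v)).card →
      F x = F y ∨ ∀ c, cs c = s → B x ρ c = B y ρ c := by
    intro s v hc
    by_cases hs : univ.filter (fun c => cs c = s ∧ B x ρ c = v) ⊆
        univ.filter (fun c => cs c = s ∧ B y ρ c = v)
    · refine Or.inr (fun c e => ?_)
      have := congrArg (c ∈ ·) (eq_of_subset_of_card_le hs hc.ge)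
      simp only [mem_filter, mem_univ, true_and, eq_iff_iff, e] at this
      revert this
      cases B x ρ c <;> cases B y ρ c <;> cases v <;> simp
    · have hs' : ¬ univ.filter (fun c => cs c = s ∧ B y ρ c = v) ⊆
          univ.filter (fun c => cs c = s ∧ B x ρ c = v) :=
        fun h' => hs (eq_of_subset_of_card_le h' hc.le).symm.subset
      rw [not_subset] at hs hs'
      obtain ⟨a, a1, a2⟩ := hs
      obtain ⟨b, b1, b2⟩ := hs'
      simp only [mem_filter, mem_univ, true_and, not_and] at a1 a2 b1 b2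
      have a3 := a2 a1.1
      have b3 := b2 b1.1
      have bb : ∀ p q v : Bool, ¬ p = v → ¬ q = v → p = q := by decide
      exact Or.inl (step a b (a1.1.trans b1.1.symm) (by rw [a1.2]; exact Ne.symm a3)
        (bb _ _ _ b3 a3) (a1.2.trans b1.2.symm))
  rcases gen 2 false hn with g2 | g2
  · exact g2
  rcases gen 1 true (by have := h.mn ρ x y; simp only [mm] at this; omega) with g1 | g1
  · exact g1
  refine h1 x y (funext fun c => ?_)
  by_cases c1 : cs c = 1
  · exact g1 c c1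
  by_cases c2 : cs c = 2
  · exact g2 c c2
  have key : ∀ (p q : Fin 3 → Bool) (ρ : Fin 3), (p 0).toNat + (p 1).toNat + (p 2).toNat =
      (q 0).toNat + (q 1).toNat + (q 2).toNat → (p 0).toNat + (p 1).toNat + (p 2).toNat ≠ 1 →
      (p 0).toNat + (p 1).toNat + (p 2).toNat ≠ 2 → p ρ = q ρ := by decide
  exact key (fun r => B x r c) (fun r => B y r c) ρ ((h.col x c).trans (h.col y c).symm)
    (by rw [h.col]; exact c1) (by rw [h.col]; exact c2)

theorem Three.eig_const (h : Three B cs) (K : ℝ) (hK : 2 < K) (g : X → ℝ)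
    (hg : ∑ ρ, cE (fun x => B x ρ) g = K • g) (x y : X) : g x = g y := by
  choose ν hν using h.exists_colSwap
  have inv : ∀ a b hab x, ν a b hab (ν a b hab x) = x := fun a b hab x => h.inj (by
    rw [hν, hν]; funext r c; simp)
  have ce : ∀ a b hab ρ f, cE (fun x => B x ρ) (f ∘ ν a b hab) =
      cE (fun x => B x ρ) f ∘ ν a b hab := by
    intro a b hab ρ f
    refine cE_perm _ _ (invPerm (ν a b hab) (inv a b hab)) (fun z y => ?_) f
    simp only [coe_invPerm, hν]
    exact (Equiv.swap a b).surjective.injective_comp_right.eq_iff.symm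
  have sym : ∀ a b hab, g ∘ ν a b hab = g := by
    intro a b hab
    obtain ⟨k, hk⟩ : ∃ k, k = g - g ∘ ν a b hab := ⟨_, rfl⟩
    have k1 : ∑ ρ, cE (fun x => B x ρ) k = K • k := by
      simp only [hk, map_sub, sum_sub_distrib, hg, ce, smul_sub]
      congr 1
      funext x
      simpa using congrFun hg (ν a b hab x)
    have k2 : k ∘ ν a b hab = -k := by funext x; simp [hk, inv]
    have k3 : ∀ ρ x, B x ρ a = B x ρ b → cE (fun x => B x ρ) k x = 0 := by
      intro ρ x e
      have e1 := congrFun (ce a b hab ρ k) x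
      rw [k2, map_neg, Function.comp_apply, cE_congr _ _ (x := ν a b hab x) (x' := x) (by
        simp only [hν]
        funext c
        rw [Function.comp_apply, Equiv.swap_apply_def]
        split_ifs with e1 e2
        · rw [e1, e]
        · rw [e2, e]
        · rfl), Pi.neg_apply] at e1
      linarith
    have k4 : ip (K • k) (K • k) ≤ 2 * ip k (K • k) := by
      rw [← k1, ip_sum_right _ _ k,
        sum_congr rfl (fun ρ _ => (ip_cE_cE (fun x => B x ρ) k k).symm)]
      simp only [ip, Fin.sum_univ_three, ← sum_add_distrib, mul_sum, Pi.add_apply]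
      refine sum_le_sum (fun x _ => ?_)
      have key : ∀ p q : Fin 3 → Bool, (p 0).toNat + (p 1).toNat + (p 2).toNat =
        (q 0).toNat + (q 1).toNat + (q 2).toNat → p 0 = q 0 ∨ p 1 = q 1 ∨ p 2 = q 2 := by decide
      generalize hu : cE (fun x => B x 0) k x = u
      generalize hv : cE (fun x => B x 1) k x = v
      generalize hw : cE (fun x => B x 2) k x = w
      rcases key (fun r => B x r a) (fun r => B x r b) (by rw [h.col, h.col, hab]) with e | e | e
      · rw [← hu, k3 0 x e]; nlinarith [sq_nonneg (v - w)]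
      · rw [← hv, k3 1 x e]; nlinarith [sq_nonneg (u - w)]
      · rw [← hw, k3 2 x e]; nlinarith [sq_nonneg (u - v)]
    rw [ip_smul_left, ip_smul_right] at k4
    have k5 : k = 0 := eq_zero_of_ip (by
      by_contra hc
      have := mul_pos (mul_pos (show 0 < K by linarith) (show 0 < K - 2 by linarith)) (not_le.1 hc)
      linarith)
    exact (sub_eq_zero.1 (hk.symm.trans k5)).symm
  obtain ⟨F, hF⟩ : ∃ F : Fin 3 → X → ℝ, ∀ ρ, F ρ = cE (fun x => B x ρ) g := ⟨_, fun _ => rfl⟩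
  have F0 : ∀ ρ x y, nn B cs ρ x = nn B cs ρ y → F ρ x = F ρ y := by
    intro ρ
    refine h.row_const ρ (F ρ) (fun x y e => by rw [hF]; exact cE_congr _ _ e)
      (fun a b x y hab e => ?_)
    have := congrFun (ce a b hab ρ g) x
    rw [sym, ← hF, Function.comp_apply] at this
    rw [this, h.inj (e.trans (hν a b hab x).symm)]
  obtain ⟨t, -, ht⟩ := exists_max_image (univ : Finset (Fin 3 × X × X)) (fun t =>
    if nn B cs t.1 t.2.2 = nn B cs t.1 t.2.1 + 1 then |F t.1 t.2.2 - F t.1 t.2.1| else 0)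
    ⟨(0, x, x), mem_univ _⟩
  obtain ⟨Λ, hΛ⟩ : ∃ Λ, Λ = if nn B cs t.1 t.2.2 = nn B cs t.1 t.2.1 + 1 then
    |F t.1 t.2.2 - F t.1 t.2.1| else 0 := ⟨_, rfl⟩
  rw [← hΛ] at ht
  have L : ∀ ρ k x y, nn B cs ρ y = nn B cs ρ x + k → |F ρ y - F ρ x| ≤ Λ * k :=
    fun ρ => h.lip ρ (F ρ) Λ (F0 ρ) (fun x y e => by simpa [e] using ht (ρ, x, y) (mem_univ _))
  have hΛ0 : Λ ≤ 0 := by
    split_ifs at hΛ with e
    swap
    · exact hΛ.le
    obtain ⟨ρ, x0, y0⟩ := t
    simp only at e hΛ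
    obtain ⟨σ, τ, h1, h2, h3, h4⟩ : ∃ σ τ : Fin 3, ρ ≠ σ ∧ ρ ≠ τ ∧ σ ≠ τ ∧
        (univ : Finset (Fin 3)) = {ρ, σ, τ} := by
      clear e hΛ
      revert ρ; decide
    have e1 : cE (nn B cs ρ) (F σ + F τ) = (K - 1) • F ρ := by
      have e2 : F σ + F τ = K • g - F ρ := by
        rw [← hg, h4, sum_insert (by simp [h1, h2]), sum_pair h3, ← hF, ← hF, ← hF]; ring
      have e3 : cE (nn B cs ρ) (F ρ) = F ρ :=
        funext fun x => cE_of_meas _ _ _ (fun y e => F0 ρ y x e)
      have e4 : cE (nn B cs ρ) g = F ρ := by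
        rw [← cE_tower' (nn B cs ρ) (fun x => B x ρ) (fun x y e => by simp only [nn, e]), ← hF, e3]
      rw [e2, map_sub, map_smul, e3, e4, sub_smul, one_smul]
    have s1 := h.step h1 h2 h3 (F σ) (F τ) Λ (L σ) (L τ) x0 y0 e
    have s2 := h.step h1 h2 h3 (-F σ) (-F τ) Λ
      (fun k x y e => by simpa [abs_sub_comm, neg_add_eq_sub] using L σ k x y e)
      (fun k x y e => by simpa [abs_sub_comm, neg_add_eq_sub] using L τ k x y e) x0 y0 e
    rw [← neg_add, map_neg] at s2
    rw [e1] at s1 s2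
    simp only [Pi.neg_apply, Pi.smul_apply, smul_eq_mul] at s1 s2
    rcases abs_cases (F ρ y0 - F ρ x0) with a | a <;> nlinarith [a.1, a.2]
  have F1 : ∀ ρ, F ρ x = F ρ y := by
    have aux : ∀ ρ x y, nn B cs ρ x ≤ nn B cs ρ y → F ρ x = F ρ y := by
      intro ρ x y e
      have a1 := L ρ _ x y (Nat.add_sub_cancel' e).symm
      have a2 := mul_nonpos_of_nonpos_of_nonneg hΛ0
        (Nat.cast_nonneg (α := ℝ) (nn B cs ρ y - nn B cs ρ x))
      have := abs_nonpos_iff.1 (a1.trans a2)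
      linarith
    intro ρ
    rcases le_total (nn B cs ρ x) (nn B cs ρ y) with e | e
    · exact aux ρ x y e
    · exact (aux ρ y x e).symm
  have a1 := congrFun hg x
  have a2 := congrFun hg y
  simp only [← hF, Finset.sum_apply, F1, Pi.smul_apply, smul_eq_mul] at a1 a2
  exact mul_left_cancel₀ (show K ≠ 0 by linarith) (a1.symm.trans a2)

theorem Three.main (h : Three B cs) (φ : X → ℝ) :
    0 ≤ ip (φ - cE (fun x => B x 0) φ) (φ - cE (fun x => B x 1) φ) +
      ip (φ - cE (fun x => B x 1) φ) (φ - cE (fun x => B x 2) φ) +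
      ip (φ - cE (fun x => B x 2) φ) (φ - cE (fun x => B x 0) φ) := by
  obtain ⟨ψ, hψ⟩ : ∃ ψ, ψ = φ - cE (fun _ => ()) φ := ⟨_, rfl⟩
  have h0 : ∀ ρ, φ - cE (fun x => B x ρ) φ = ψ - cE (fun x => B x ρ) ψ := by
    intro ρ
    rw [hψ, map_sub, cE_tower _ _ (fun _ _ _ => rfl)]; ring
  have h1 := eig_lower ((-1 : ℝ) • ∑ ρ, cE (fun x => B x ρ)) (fun f g => by
    simp only [LinearMap.smul_apply, LinearMap.sum_apply,
      ip_smul_left, ip_smul_right, ip_sum_left, ip_sum_right, ip_cE]) (-2) ψ (fun μ g hg hμ => by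
    have h2 := h.eig_const (-μ) (by linarith) g (by
      rw [neg_smul, ← hg, LinearMap.smul_apply, neg_one_smul, neg_neg, LinearMap.sum_apply])
    have h3 : cE (fun _ => ()) g = g := funext fun x => cE_of_meas _ _ _ (fun y _ => h2 y x)
    rw [← h3, ip_cE, hψ, map_sub, cE_cE, sub_self]
    simp [ip])
  rw [LinearMap.smul_apply, LinearMap.sum_apply, ip_smul_right, ip_sum_right,
    Fin.sum_univ_three] at h1
  rw [h0, h0, h0]
  obtain ⟨a, ha⟩ : ∃ a : Fin 3 → X → ℝ, ∀ ρ, a ρ = ψ - cE (fun x => B x ρ) ψ := ⟨_, fun _ => rfl⟩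
  have h2 : ∀ ρ, ip (a ρ) (a ρ) = ip ψ (a ρ) := by
    intro ρ
    rw [ha, ip_sub_self, ip_cE_cE, ip_sub_right]; ring
  have h3 : ip ψ ψ ≤ ip ψ (a 0) + ip ψ (a 1) + ip ψ (a 2) := by
    simp only [ha, ip_sub_right]; linarith
  have h4 := two_ip_le ψ (a 0 + a 1 + a 2)
  simp only [ip_add_left, ip_add_right, h2, ip_comm (a 1) (a 0), ip_comm (a 2) (a 1),
    ip_comm (a 0) (a 2)] at h4
  rw [← ha, ← ha, ← ha]
  linarith

end Vale.Agent.P335
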