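import Vale.Agent.P335.Inst

/-!
The three-row lemma for graphs.
-/

namespace Vale.Agent.P335

open Finset
open scoped Classical

variable {V : Type}

/-- The row of `a` in the triple `a`, `b`, `c`; the extra column records the opposite edge. -/
noncomputable def row (a b c : V) (G : SimpleGraph V) : Option V → Bool
  | none => decide (¬ G.Adj b c)
  | some x => decide ((x ≠ a ∧ x ≠ b ∧ x ≠ c) ∧ G.Adj a x)

/-- The key of a triple. -/
noncomputable def tk (a b c : V) (G : SimpleGraph V) : (V → V → Prop) × (Option V → ℕ) :=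
  (fun x y => (x ≠ a ∧ x ≠ b ∧ x ≠ c) ∧ (y ≠ a ∧ y ≠ b ∧ y ≠ c) ∧ G.Adj x y,
    fun o => (row a b c G o).toNat + (row b c a G o).toNat + (row c a b G o).toNat)

theorem tk_cyc (a b c : V) (G : SimpleGraph V) : tk b c a G = tk a b c G := by
  refine Prod.ext ?_ ?_
  · funext x y; simp only [tk]; grind
  · funext o; simp only [tk]; ring

theorem tri1 {a b c : V} (ab : a ≠ b) (ac : a ≠ c) {G H : SimpleGraph V} (h : R b c G H) :
    row a b c G = row a b c H ∧ tk a b c G = tk a b c H := by
  have h1 : row a b c G = row a b c H := by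
    funext o
    cases o with
    | none => simp only [row, h.edge]
    | some x =>
      simp only [row, decide_eq_decide]
      exact and_congr_right (fun e => h.out a x ab ac e.2.1 e.2.2)
  refine ⟨h1, Prod.ext ?_ ?_⟩
  · funext x y
    exact propext (and_congr_right (fun e => and_congr_right (fun e' =>
      h.out x y e.2.1 e.2.2 e'.2.1 e'.2.2)))
  · funext o
    simp only [tk, h1, add_assoc, add_right_inj]
    cases o with
    | none =>
      have a1 := h.both a ab ac
      have a2 := h.any a ab ac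
      simp only [row, G.adj_comm a, H.adj_comm a]
      by_cases h1 : G.Adj b a <;> by_cases h2 : G.Adj c a <;> by_cases h3 : H.Adj b a <;>
        by_cases h4 : H.Adj c a <;> simp_all
    | some x =>
      by_cases e : x ≠ a ∧ x ≠ b ∧ x ≠ c
      · have a1 := h.both x e.2.1 e.2.2
        have a2 := h.any x e.2.1 e.2.2
        simp only [row, e.1, e.2.1, e.2.2, ne_eq, not_false_eq_true, true_and]
        by_cases h1 : G.Adj b x <;> by_cases h2 : G.Adj c x <;> by_cases h3 : H.Adj b x <;>
          by_cases h4 : H.Adj c x <;> simp_all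
      · have e1 : ¬ (x ≠ b ∧ x ≠ c ∧ x ≠ a) := by grind
        have e2 : ¬ (x ≠ c ∧ x ≠ a ∧ x ≠ b) := by grind
        simp only [row, e1, e2, false_and]

theorem tri2 {a b c : V} {G H : SimpleGraph V} (h1 : row a b c G = row a b c H)
    (h2 : tk a b c G = tk a b c H) : R b c G H := by
  have h3 : ∀ x, x ≠ a → x ≠ b → x ≠ c → (G.Adj a x ↔ H.Adj a x) := by
    intro x x1 x2 x3
    simpa [row, x1, x2, x3] using congrFun h1 (some x)
  have h4 : ∀ w, w ≠ b → w ≠ c → (G.Adj b w ∧ G.Adj c w ↔ H.Adj b w ∧ H.Adj c w) ∧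
      (G.Adj b w ∨ G.Adj c w ↔ H.Adj b w ∨ H.Adj c w) := by
    intro w w1 w2
    by_cases w0 : w = a
    · have := congrFun (congrArg Prod.snd h2) none
      simp only [tk, h1, add_assoc, add_right_inj] at this
      simp only [row, G.adj_comm a, H.adj_comm a] at this
      subst w0
      by_cases h1 : G.Adj b w <;> by_cases h2 : G.Adj c w <;> by_cases h3 : H.Adj b w <;>
        by_cases h4 : H.Adj c w <;> simp_all
    · have := congrFun (congrArg Prod.snd h2) (some w)
      simp only [tk, h1, add_assoc, add_right_inj] at this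
      simp only [row, w0, w1, w2, ne_eq, not_false_eq_true, true_and] at this
      by_cases h1 : G.Adj b w <;> by_cases h2 : G.Adj c w <;> by_cases h3 : H.Adj b w <;>
        by_cases h4 : H.Adj c w <;> simp_all
  refine ⟨fun x y x1 x2 y1 y2 => ?_, fun w w1 w2 => (h4 w w1 w2).1, fun w w1 w2 => (h4 w w1 w2).2,
    by simpa [row, not_iff_not] using congrFun h1 none⟩
  by_cases x0 : x = a
  · by_cases y0 : y = a
    · simp [x0, y0]
    · rw [x0, h3 y y0 y1 y2]
  by_cases y0 : y = a
  · rw [y0, G.adj_comm, H.adj_comm, h3 x x0 x1 x2]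
  simpa [tk, x0, x1, x2, y0, y1, y2] using congrFun (congrFun (congrArg Prod.fst h2) x) y

variable [Fintype V] {d : V → ℕ}

theorem tri3 {a b c : V} (ab : a ≠ b) (ac : a ≠ c) (G : Omega d) (i j : Option V)
    (h1 : row b c a G.1 i = true) (h2 : row c a b G.1 i = false) (h3 : row b c a G.1 j = false)
    (h4 : row c a b G.1 j = true) : ∃ H : Omega d, R b c H.1 G.1 ∧
      (∀ o, row b c a H.1 o = if o = i ∨ o = j then row c a b G.1 o else row b c a G.1 o) ∧
      (∀ o, row c a b H.1 o = if o = i ∨ o = j then row b c a G.1 o else row c a b G.1 o) := by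
  have key : ∀ o : Option V, row b c a G.1 o ≠ row c a b G.1 o →
      (o.getD a ≠ b ∧ o.getD a ≠ c) ∧ (row b c a G.1 o = true ↔ G.1.Adj b (o.getD a)) ∧
      (row c a b G.1 o = true ↔ G.1.Adj c (o.getD a)) ∧ o ≠ some a := by
    intro o ho
    cases o with
    | none =>
      simp only [row, G.1.adj_comm a, ne_eq, decide_eq_decide, Option.getD_none,
        decide_eq_true_eq] at ho ⊢
      grind
    | some x =>
      simp only [row, ne_eq, decide_eq_decide, Option.getD_some, decide_eq_true_eq,
        Option.some.injEq] at ho ⊢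
      grind
  obtain ⟨⟨i1, i2⟩, i3, i4, i5⟩ := key i (by simp [h1, h2])
  obtain ⟨⟨j1, j2⟩, j3, j4, j5⟩ := key j (by simp [h3, h4])
  have hok : ok b c {i.getD a, j.getD a} G.1 := by
    rw [ok_pair]
    rw [h1] at i3; rw [h2] at i4; rw [h3] at j3; rw [h4] at j4
    grind
  have mem : ∀ o : Option V, o ≠ some a →
      (o.getD a ∈ ({i.getD a, j.getD a} : Finset V) ↔ o = i ∨ o = j) := by
    intro o ho
    have : ∀ p : Option V, p ≠ some a → (o.getD a = p.getD a ↔ o = p) := by
      intro p hp
      cases o <;> cases p <;>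
        simp only [Option.getD_none, Option.getD_some, ne_eq, Option.some.injEq] at ho hp ⊢ <;>
        grind
    rw [mem_insert, mem_singleton, this i i5, this j j5]
  refine ⟨rsw b c {i.getD a, j.getD a} G, R_rsw _ _ _ _, fun o => ?_, fun o => ?_⟩
  all_goals
    rw [rsw_pos hok, Bool.eq_iff_iff]
    cases o with
    | none =>
      have := mem none (by simp)
      simp only [row, SimpleGraph.adj_comm _ a, sw_left hok.1, sw_right hok.2.1,
        Option.getD_none] at this ⊢
      split_ifs <;> simp_all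
    | some x =>
      by_cases e : x = a
      · subst e; simp [row]
      have := mem (some x) (by simp [e])
      simp only [row, sw_left hok.1, sw_right hok.2.1, Option.getD_some] at this ⊢
      simp only [this]
      split_ifs <;> simp only [decide_eq_true_eq] <;> grind

theorem tri4 (a : V) {b c : V} (bc : b ≠ c) (G : Omega d) :
    (univ.filter (fun o => row a b c G.1 o = true)).card + 2 = d a + (tk a b c G.1).2 none := by
  rw [← G.2 a, deg_eq, card_filter, card_filter, Fintype.sum_option,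
    ← add_sum_erase _ _ (mem_univ b), ← add_sum_erase _ _ (mem_erase.2 ⟨bc.symm, mem_univ c⟩),
    ← add_sum_erase _ _ (mem_univ b), ← add_sum_erase _ _ (mem_erase.2 ⟨bc.symm, mem_univ c⟩),
    sum_congr rfl (g := fun x => if G.1.Adj a x then 1 else 0) (fun x hx => by
      simp only [mem_erase] at hx
      refine if_congr ?_ rfl rfl
      simp only [row, decide_eq_true_eq]
      exact ⟨fun h => h.2, fun h => ⟨⟨h.ne.symm, hx.2.1, hx.1⟩, h⟩⟩)]
  simp only [tk, row, G.1.adj_comm c a]
  by_cases h1 : G.1.Adj a b <;> by_cases h2 : G.1.Adj a c <;> by_cases h3 : G.1.Adj b c <;>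
    simp [h1, h2, h3] <;> ring

theorem tri_fiber {u v w : V} (uv : u ≠ v) (uw : u ≠ w) (vw : v ≠ w) (G0 : Omega d) :
    Three (fun (G : {G : Omega d // tk u v w G.1 = tk u v w G0.1}) =>
      ![row u v w G.1.1, row v w u G.1.1, row w u v G.1.1]) (tk u v w G0.1).2 := by
  refine ⟨fun G H h => ?_, fun G o => congrFun (congrArg Prod.snd G.2) o, fun G H ρ => ?_, ?_⟩
  · have e := G.2.trans H.2.symm
    have r1 := tri2 (congrFun h 0) e
    have r2 := tri2 (congrFun h 1) (by rw [tk_cyc u v w, tk_cyc u v w, e])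
    refine Subtype.ext (Subtype.ext (r1.eq (fun x => ?_)))
    by_cases x1 : x = v
    · simp [x1]
    by_cases x2 : x = w
    · rw [x2, r1.edge]
    by_cases x3 : x = u
    · have r3 := tri2 (congrFun h 2) (by rw [← tk_cyc w u v, ← tk_cyc w u v, e])
      rw [x3, r3.swap.edge]
    exact r2.out v x vw uv.symm x2 x3
  · have e := G.2.trans H.2.symm
    have a1 := tri4 u vw G.1
    have a2 := tri4 u vw H.1
    have a3 := tri4 v uw.symm G.1
    have a4 := tri4 v uw.symm H.1
    have a5 := tri4 w uv G.1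
    have a6 := tri4 w uv H.1
    rw [tk_cyc u v w] at a3 a4
    rw [← tk_cyc w u v] at a5 a6
    rw [e] at a1 a3 a5
    fin_cases ρ <;> simp <;> omega
  · have gen : ∀ (G : {G : Omega d // tk u v w G.1 = tk u v w G0.1}) (ρ : Fin 3) i j,
        ![row u v w G.1.1, row v w u G.1.1, row w u v G.1.1] ρ i = true →
        ![row u v w G.1.1, row v w u G.1.1, row w u v G.1.1] (ρ + 1) i = false →
        ![row u v w G.1.1, row v w u G.1.1, row w u v G.1.1] ρ j = false →
        ![row u v w G.1.1, row v w u G.1.1, row w u v G.1.1] (ρ + 1) j = true →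
        ∃ H : {G : Omega d // tk u v w G.1 = tk u v w G0.1},
          ![row u v w H.1.1, row v w u H.1.1, row w u v H.1.1] =
          rowSwap ρ (ρ + 1) i j ![row u v w G.1.1, row v w u G.1.1, row w u v G.1.1] := by
      intro G ρ i j h1 h2 h3 h4
      fin_cases ρ
      · obtain ⟨H, r, e1, e2⟩ := tri3 uw.symm vw.symm G.1 i j h1 h2 h3 h4
        obtain ⟨e3, e4⟩ := tri1 uw.symm vw.symm r
        refine ⟨⟨H, by rw [tk_cyc w u v, e4, ← tk_cyc w u v, G.2]⟩, ?_⟩
        funext s o
        fin_cases s <;> simp [rowSwap, e1, e2, e3, Equiv.swap_apply_def]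
      · obtain ⟨H, r, e1, e2⟩ := tri3 uv uw G.1 i j h1 h2 h3 h4
        obtain ⟨e3, e4⟩ := tri1 uv uw r
        refine ⟨⟨H, e4.trans G.2⟩, ?_⟩
        funext s o
        fin_cases s <;> simp [rowSwap, e1, e2, e3, Equiv.swap_apply_def]
      · obtain ⟨H, r, e1, e2⟩ := tri3 vw uv.symm G.1 i j h1 h2 h3 h4
        obtain ⟨e3, e4⟩ := tri1 vw uv.symm r
        refine ⟨⟨H, by rw [← tk_cyc u v w, e4, tk_cyc u v w, G.2]⟩, ?_⟩
        funext s o
        fin_cases s <;> simp [rowSwap, e1, e2, e3, Equiv.swap_apply_def]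
    intro G ρ σ i j h1 h2 h3 h4
    have k : ∀ ρ σ : Fin 3, ρ = σ ∨ σ = ρ + 1 ∨ ρ = σ + 1 := by decide
    rcases k ρ σ with rfl | rfl | rfl
    · rw [h1] at h2; exact absurd h2 (by simp)
    · exact gen G ρ i j h1 h2 h3 h4
    · obtain ⟨H, e⟩ := gen G σ j i h4 h3 h2 h1
      refine ⟨H, e.trans ?_⟩
      funext s o
      simp only [rowSwap, or_comm, Equiv.swap_comm]

theorem tri_sum {u v w : V} (uv : u ≠ v) (uw : u ≠ w) (vw : v ≠ w) (φ : Omega d → ℝ)
    (G0 : Omega d) [Fintype {G : Omega d // tk u v w G.1 = tk u v w G0.1}] :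
    0 ≤ ∑ G : {G : Omega d // tk u v w G.1 = tk u v w G0.1}, (psi v w φ G * psi w u φ G +
      psi w u φ G * psi u v φ G + psi u v φ G * psi v w φ G) := by
  have key : ∀ a b c : V, a ≠ b → a ≠ c → (∀ G, tk a b c G = tk u v w G) →
      ∀ G : {G : Omega d // tk u v w G.1 = tk u v w G0.1}, psi b c φ G =
        φ G - cE (fun G : {G : Omega d // tk u v w G.1 = tk u v w G0.1} =>
          row a b c G.1.1) (φ ∘ Subtype.val) G := by
    intro a b c ab ac e G
    rw [psi, Pi.sub_apply, cE_comp (key b c) (fun G => row a b c G.1.1) Subtype.val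
      Subtype.val_injective G (fun H => by
        rw [key_eq]
        exact ⟨fun h => tri2 h (by rw [e, e, H.2, G.2]), fun h => (tri1 ab ac h).1⟩)
      (fun x hx => ⟨⟨x, by rw [← e, (tri1 ab ac (key_eq.1 hx)).2, e, G.2]⟩, rfl⟩)]
  have h := (tri_fiber uv uw vw G0).main (φ ∘ Subtype.val)
  simp only [ip, ← sum_add_distrib] at h
  refine h.trans (le_of_eq (sum_congr rfl (fun G _ => ?_)))
  rw [key u v w uv uw (fun _ => rfl), key v w u vw uv.symm (fun _ => tk_cyc _ _ _ _),
    key w u v uw.symm vw.symm (fun _ => (tk_cyc _ _ _ _).symm)]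
  rfl

theorem tri_inst {u v w : V} (uv : u ≠ v) (uw : u ≠ w) (vw : v ≠ w) (φ : Omega d → ℝ) :
    0 ≤ ip (psi v w φ) (psi w u φ) + ip (psi w u φ) (psi u v φ) + ip (psi u v φ) (psi v w φ) := by
  simp only [ip, ← sum_add_distrib]
  exact sum_nonneg_of_fiber (fun G : Omega d => tk u v w G.1) _
    (fun G0 => @tri_sum _ _ _ u v w uv uw vw φ G0 (_))

end Vale.Agent.P335
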